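import Vale.Agent.P032.R2.H264.SemAt
import Vale.Agent.P032.R2.H609.WLim

/-!
# P032: the world of a system of rings

`Wd U T G D`: the centres are two-pair points with the colours of the rings, the letter sets cover the
circles; `Wd.rings`: the positions form `Rings`.
-/

set_option autoImplicit false

open Set Filter Topology Metric

noncomputable section

namespace Vale.Agent.P032.R2.H264

open Vale.Agent.P032.Six Vale.Agent.P032.Words Vale.Agent.P032.S5.H767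
open Vale.Agent.P032.R2.H741.Tp

/-- the four letter sets of a ring -/
def L4 (T : ℂ → Set (Fin 6)) (G : RD) (D : Dat) (r : ℕ) : Fin 4 → Set ℂ :=
  Lt T (D.c r) (D.x (G.sg r 0)) (D.x (G.sg r 1)) (D.x (G.sg r 2)) (D.x (G.sg r 3))
    (D.x (G.sg r 4)) (D.x (G.sg r 5))

/-- the letter of a letter set -/
def l4 : Fin 6 → Fin 4 := ![0, 1, 2, 3, 3, 2]

theorem l4_val (l : Fin 6) : (l4 l).val = lm l := by
  fin_cases l <;> rfl

/-- a system of rings -/
structure Wd (U : Fin 6 → Set ℂ) (T : ℂ → Set (Fin 6)) (G : RD) (D : Dat) : Prop where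
  wt : WT U T
  mn : MinF U T
  sgl : ∀ r < G.R + G.Y, ∀ j < 6, G.sg r j < 6
  sgi : ∀ r < G.R + G.Y, ∀ i < 6, ∀ j < 6, G.sg r i = G.sg r j → i = j
  xi : ∀ i < 6, ∀ j < 6, D.x i = D.x j → i = j
  dpt : ∀ r < G.R + G.Y, DPt T (D.c r) (D.x (G.sg r 0)) (D.x (G.sg r 1)) (D.x (G.sg r 2))
    (D.x (G.sg r 3))
  adj : ∀ r < G.R, ∀ s < G.R, G.adj r s = true → dist (D.c r) (D.c s) = 1
  yhub : ∀ s, G.R ≤ s → s < G.R + G.Y → G.yr s < G.R
  yadj : ∀ s, G.R ≤ s → s < G.R + G.Y → dist (D.c (G.yr s)) (D.c s) = 1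
  F0 : ∀ r < G.R + G.Y, D.F r 0 = L4 T G D r 0
  F1 : ∀ r < G.R + G.Y, D.F r 1 = L4 T G D r 1
  F2 : ∀ r < G.R + G.Y, D.F r 2 ∪ D.F r 5 = L4 T G D r 2
  F3 : ∀ r < G.R + G.Y, D.F r 3 ∪ D.F r 4 = L4 T G D r 3
  cl : ∀ r < G.R + G.Y, ∀ l, IsClosed (D.F r l)

namespace Wd

variable {U : Fin 6 → Set ℂ} {T : ℂ → Set (Fin 6)} {G : RD} {D : Dat}

theorem nd (W : Wd U T G D) {r : ℕ} (hr : r < G.R + G.Y) :
    [D.x (G.sg r 0), D.x (G.sg r 1), D.x (G.sg r 2), D.x (G.sg r 3), D.x (G.sg r 4),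
      D.x (G.sg r 5)].Nodup := by
  have h : ∀ i < 6, ∀ j < 6, D.x (G.sg r i) = D.x (G.sg r j) → i = j := fun i hi j hj h1 =>
    W.sgi r hr i hi j hj (W.xi _ (W.sgl r hr i hi) _ (W.sgl r hr j hj) h1)
  have hne : ∀ i < 6, ∀ j < 6, i ≠ j → D.x (G.sg r i) ≠ D.x (G.sg r j) := fun i hi j hj h1 h2 =>
    h1 (h i hi j hj h2)
  simp only [List.nodup_cons, List.mem_cons, List.not_mem_nil, or_false, not_or, List.nodup_nil,
    and_true, not_false_eq_true]
  exact ⟨⟨hne 0 (by norm_num) 1 (by norm_num) (by norm_num),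
    hne 0 (by norm_num) 2 (by norm_num) (by norm_num),
    hne 0 (by norm_num) 3 (by norm_num) (by norm_num),
    hne 0 (by norm_num) 4 (by norm_num) (by norm_num),
    hne 0 (by norm_num) 5 (by norm_num) (by norm_num)⟩,
    ⟨hne 1 (by norm_num) 2 (by norm_num) (by norm_num),
    hne 1 (by norm_num) 3 (by norm_num) (by norm_num),
    hne 1 (by norm_num) 4 (by norm_num) (by norm_num),
    hne 1 (by norm_num) 5 (by norm_num) (by norm_num)⟩,
    ⟨hne 2 (by norm_num) 3 (by norm_num) (by norm_num),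
    hne 2 (by norm_num) 4 (by norm_num) (by norm_num),
    hne 2 (by norm_num) 5 (by norm_num) (by norm_num)⟩,
    ⟨hne 3 (by norm_num) 4 (by norm_num) (by norm_num),
    hne 3 (by norm_num) 5 (by norm_num) (by norm_num)⟩,
    hne 4 (by norm_num) 5 (by norm_num) (by norm_num)⟩

theorem ctr (W : Wd U T G D) {r : ℕ} (hr : r < G.R + G.Y) :
    Ctr U T (D.c r) (D.x (G.sg r 0)) (D.x (G.sg r 1)) (D.x (G.sg r 2)) (D.x (G.sg r 3))
      (D.x (G.sg r 4)) (D.x (G.sg r 5)) :=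
  ctr_of_dpt W.wt.irr (W.dpt r hr) (W.nd hr)

/-- a point with a letter set has the letter -/
theorem memL4 (W : Wd U T G D) {r : ℕ} (hr : r < G.R + G.Y) {l : Fin 6} {q : ℂ} (hq : q ∈ D.F r l) :
    q ∈ L4 T G D r (l4 l) := by
  fin_cases l
  · exact (W.F0 r hr).subset hq
  · exact (W.F1 r hr).subset hq
  · exact (W.F2 r hr).subset (Or.inl hq)
  · exact (W.F3 r hr).subset (Or.inl hq)
  · exact (W.F3 r hr).subset (Or.inr hq)
  · exact (W.F2 r hr).subset (Or.inr hq)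

/-- the colours of a letter set -/
theorem cls_eq (r : Fin (G.R + G.Y)) (l : Fin 6) : cls G D r l =
    col (D.x (G.sg r.val 0)) (D.x (G.sg r.val 1)) (D.x (G.sg r.val 2)) (D.x (G.sg r.val 3))
      (D.x (G.sg r.val 4)) (D.x (G.sg r.val 5)) (l4 l) := by
  fin_cases l <;> rfl

/-- **The rings.** -/
theorem rings (W : Wd U T G D) : Rings T (cen G D) (cls G D) (lts G D) where
  closed r l := W.cl r.val r.isLt l
  cover r q hq := by
    obtain ⟨l, hl⟩ := (W.ctr r.isLt).cover hq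
    change q ∈ L4 T G D r.val l at hl
    have h4 := fin4_cases l
    rcases h4 with rfl | rfl | rfl | rfl
    · exact ⟨0, (W.F0 _ r.isLt).symm.subset hl⟩
    · exact ⟨1, (W.F1 _ r.isLt).symm.subset hl⟩
    · rcases (W.F2 _ r.isLt).symm.subset hl with h | h
      exacts [⟨2, h⟩, ⟨5, h⟩]
    · rcases (W.F3 _ r.isLt).symm.subset hl with h | h
      exacts [⟨3, h⟩, ⟨4, h⟩]
  sub r l q _ hq := by
    rw [cls_eq]
    exact Lt_col W.wt.irr (W.memL4 r.isLt hq)

end Wd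

end Vale.Agent.P032.R2.H264
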