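import Vale.Agent.P032.R2.H264.Inv
import Vale.Agent.P032.R2.H267.LabSem
import Vale.Agent.P032.R2.H267.LatchSem
import Vale.Agent.P032.R2.H267.SameSem
import Vale.Agent.P032.R2.H492.PMS
import Vale.Agent.P032.R2.H301.FieldT
import Vale.Agent.P032.R2.H413.SemF

/-!
# P032: the facts at the instants of a period in a system of rings

`Hp U T G D`: the hypotheses of a root; `Hp.sF`, `Hp.tF`, `Hp.iF`, `Hp.bF`: the facts; `Hp.no_root`: an
inductive invariant does not exist.
-/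

set_option autoImplicit false

open Set Filter Topology Metric

noncomputable section

namespace Vale.Agent.P032.R2.H264

open Vale.Agent.P032.Six Vale.Agent.P032.Words Vale.Agent.P032.S5.H767
open Vale.Agent.P032.R2.H741.Tp

namespace Wd

variable {U : Fin 6 → Set ℂ} {T : ℂ → Set (Fin 6)} {G : RD} {D : Dat} {L0 L K : Sl G} {u : ℝ}

theorem rR {r : ℕ} (h : r < G.R) : r < G.R + G.Y := by omega

end Wd

/-- the anchor contacts -/
def Anch (U : Fin 6 → Set ℂ) (T : ℂ → Set (Fin 6)) (G : RD) (D : Dat) : Prop :=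
  ∀ L0 L K : Sl G, LimL (posX (cen G D) (lts G D)) (Good (cen G D)) D.u0 L →
    LimR (posX (cen G D) (lts G D)) (Good (cen G D)) D.u0 K →
    ∀ r < G.R, ∀ p < 2, G.ap r = p + 1 →
      (∀ i < 6, ((semAt U T G D L0 D.u0 L K).C r 0 i ↔ i = G.sg r (2 * p) ∨
        i = G.sg r (2 * p + 1) ∨ i = G.sg r 4 ∨ i = G.sg r 5)) ∧
      ((semAt U T G D L0 D.u0 L K).X 0 r 0 (2 + p) ↔
        ¬ (semAt U T G D L0 D.u0 L K).X 1 r 0 (2 + p))

/-- **The hypotheses of a root.** -/
structure Hp (U : Fin 6 → Set ℂ) (T : ℂ → Set (Fin 6)) (G : RD) (D : Dat) : Prop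
    extends Wd U T G D where
  cnt : R2.H413.Cnt G T D
  md4 : ∀ r < G.R, ∀ a < 4, 2 ≤ G.md r a → G.md r a = 4
  nrz : ∀ r < G.R, G.nr r = true → ∀ q, dist q (D.c r) = 1 →
    ∀ w, w = 4 ∨ w = 7 ∨ w = 10 ∨ w = 13 →
    ¬ DPt T q (D.x (pc G r w 0)) (D.x (pc G r w 1)) (D.x (pc G r w 2)) (D.x (pc G r w 3))
  anc : ∀ r < G.R, ∀ s < G.R, G.adj r s = true → ∀ m < 6, G.an r s = m + 1 →
    pp D r m D.u0 = D.c s
  typ : ∀ r < G.R, ∀ p < 2, G.ty r p = true → R2.H301.Typd T G D r p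
  ap : Anch U T G D
  ad : ∀ r < G.R, ∀ w < 16, G.ad r = w + 1 →
    DPt T (pt (D.c r) D.u0) (D.x (pc G r w 0)) (D.x (pc G r w 1)) (D.x (pc G r w 2))
      (D.x (pc G r w 3))
  ncr : ∀ r < G.R, ∀ p < 2, G.nc r p = true → ∀ q, dist q (D.c r) = 1 → 4 ≤ (T q).ncard →
    q ∉ closure (Ex T (D.c r) {D.x (G.sg r (2 * p)), D.x (G.sg r (2 * p + 1))})
  yh : R2.H492.YH G D

namespace Hp

variable {U : Fin 6 → Set ℂ} {T : ℂ → Set (Fin 6)} {G : RD} {D : Dat} {L0 L K : Sl G} {u : ℝ}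

/-- two-pair anchor contacts -/
theorem _root_.Vale.Agent.P032.R2.H264.Wd.anch_two (W : Wd U T G D)
    (hA : ∀ r < G.R, ∀ p < 2, G.ap r = p + 1 →
      DPt T (pt (D.c r) D.u0) (D.x (G.sg r (2 * p))) (D.x (G.sg r 4)) (D.x (G.sg r (2 * p + 1)))
        (D.x (G.sg r 5)) ∨
      DPt T (pt (D.c r) D.u0) (D.x (G.sg r (2 * p))) (D.x (G.sg r 5)) (D.x (G.sg r (2 * p + 1)))
        (D.x (G.sg r 4))) : Anch U T G D :=
  fun _ _ _ hL hK r hr p hp ha =>
    R2.H301.t_anch _ rfl W le_rfl hL hK hA r hr p hp ha ⟨rfl, le_rfl⟩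

theorem ltr (W : Hp U T G D) (hL : LimL (posX (cen G D) (lts G D)) (Good (cen G D)) u L)
    (hK : LimR (posX (cen G D) (lts G D)) (Good (cen G D)) u K) : R2.H413.Ltr G T D u L K where
  left r _ hr k hk := by
    have h := R2.H301.lf_of_semL hL (R2.H301.sub4_of_wd W.toWd hr) hr hk
    rwa [R2.H301.lm4_eq_l4] at h
  right r _ hr k hk := by
    have h := R2.H301.rf_of_semR hK (R2.H301.sub4_of_wd W.toWd hr) hr hk
    rwa [R2.H301.lm4_eq_l4] at h

theorem sF (W : Hp U T G D) (hL : LimL (posX (cen G D) (lts G D)) (Good (cen G D)) u L) :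
    SF G (semAt U T G D L0 u L K) := by
  have Lb : LabS G (semAt U T G D L0 u L K) U T D.c D.x u := R2.H267.labS W.toWd hL
  exact {
    some := R2.H301.s_some _ rfl
    uniq := R2.H301.s_uniq _ rfl
    legal := R2.H301.s_legal _ rfl W.wt.irr W.rings hL
    legal2 := R2.H301.s_legal2 _ rfl W.wt.irr W.rings hL W.adj
    opp := Lb.s_opp
    conv := Lb.s_conv
    mix := Lb.s_mix
    letlab := Lb.s_letlab
    cntmono := R2.H413.cntmono
    ysome := R2.H301.s_ysome _ rfl
    yuniq := R2.H301.s_yuniq _ rfl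
    ylegal := R2.H301.s_ylegal _ rfl W.wt.irr W.rings hL
    ylegal2 := R2.H301.s_ylegal2 _ rfl W.wt.irr W.rings hL W.yadj }

theorem tF (W : Hp U T G D) (h0 : D.u0 ≤ u) (h1 : u < D.u0 + 1)
    (hL : LimL (posX (cen G D) (lts G D)) (Good (cen G D)) u L)
    (hK : LimR (posX (cen G D) (lts G D)) (Good (cen G D)) u K) :
    TF G (semAt U T G D L0 u L K) := by
  have Lb : LabH G (semAt U T G D L0 u L K) U T D.c D.x D.u0 u :=
    R2.H267.labH W.toWd h0 h1 hL hK
  have P : R2.H492.PM G (semAt U T G D L0 u L K) U T D.c D.x u := R2.H492.pm_of_wd W.toWd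
  have Y : R2.H492.TY G (semAt U T G D L0 u L K) := R2.H492.ty_of_wd W.toWd W.yh hL hK h0
  exact {
    some := R2.H301.t_some _ rfl
    uniq := R2.H301.t_uniq _ rfl
    legal := R2.H301.t_legal _ rfl W.wt.irr W.rings hK
    legal2 := R2.H301.t_legal2 _ rfl W.wt.irr W.rings hK W.adj
    LC := R2.H301.t_LC _ rfl W.wt.irr W.rings hL hK
    le4 := P.le4
    inside := P.inside
    q4i := P.q4i
    q4e := P.q4e
    q4ge := P.q4ge
    dQ := P.dQ
    dC := P.dC
    dd := P.dd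
    dH := P.dH
    hQ := P.hQ'
    q4cases := P.q4cases
    notri := P.notri
    swap4 := P.swap4
    flanksame := P.flanksame
    flank4 := P.flank4
    flankr := P.flankr
    s4word := R2.H301.t_s4word _ rfl W.wt.irr hL hK (fun r hr => R2.H301.sub4_of_wd W.toWd (Wd.rR hr))
      (fun r hr => W.dpt r (Wd.rR hr)) (fun r hr => W.nd (Wd.rR hr))
    single := P.single
    single2 := P.single2
    notsub := P.notsub
    notsub2 := P.notsub2
    faceA := P.faceA
    faceB := P.faceB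
    faceC := P.faceC
    faceD := P.faceD
    faceE := P.faceE
    hubA := P.hubA
    hubB := P.hubB
    insubA := P.insubA
    insubB := P.insubB
    two := P.two
    n0L := Lb.t_n0L
    n0R := Lb.t_n0R
    opp := Lb.t_opp
    conv := Lb.t_conv
    convM := Lb.t_convM
    convM2 := Lb.t_convM2
    M := R2.H267.fM
    mix := Lb.t_mix
    line1 := Lb.t_line1
    rkind := Lb.t_rkind
    mkind := Lb.t_mkind
    lab1 := Lb.t_lab1
    pairlab := Lb.t_pairlab
    letlab := Lb.t_letlab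
    gline := Lb.t_gline
    gset := R2.H267.gset
    gmono := R2.H267.fgmono
    E := R2.H413.E'
    absent := R2.H413.absent W.cnt
    pres := R2.H413.pres'
    cnt := R2.H413.cnt W.cnt h0 h1
    vis := (R2.H413.WD.of_wd W.toWd).vis (W.ltr hL hK) W.md4
    norz := fun r hr hn k _ w hw => W.nrz r hr hn _ (dist_pt _ _) w hw
    first := R2.H413.first_T
    anchor := R2.H413.anchor W.anc h0 h1
    done := R2.H413.done h0 h1
    ident := R2.H413.ident
    identD := R2.H413.identD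
    ctC := P.ctC
    ctD := P.ctD
    same := P.same
    sameH := P.sameH
    sameD := P.sameD
    agree := Lb.t_agree
    tight := Lb.t_tight
    ysome := R2.H301.t_ysome _ rfl
    yuniq := R2.H301.t_yuniq _ rfl
    ylegal := R2.H301.t_ylegal _ rfl W.wt.irr W.rings hK
    ylegal2 := R2.H301.t_ylegal2 _ rfl W.wt.irr W.rings hK W.yadj
    nodir := Y.nodir
    tpY := Y.tpY
    sameY := Y.sameY
    tpkeep := R2.H301.t_tpkeep _ rfl W.toWd hL hK W.typ
    tpend := R2.H301.t_tpend _ rfl W.toWd hL hK W.typ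
    anch := by
      intro r hr p hp ha hF
      obtain rfl : u = D.u0 := le_antisymm hF.2 h0
      exact W.ap L0 L K hL hK r hr p hp ha
    anchD := R2.H301.t_anchD _ rfl h0 W.ad
    nc := R2.H301.t_nc _ rfl W.toWd hL hK W.ncr
    out2 := P.out2 }

theorem iF :
    IF G (semAt U T G D L0 D.u0 L0 K) where
  initX := R2.H301.i_initX _ rfl
  initn := R2.H267.finitn
  M0 := R2.H267.fM0
  g0 := R2.H267.fg0
  cnt0 := R2.H413.cnt0
  done0 := R2.H413.done0
  first := R2.H413.first_I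
  initY := R2.H301.i_initY _ rfl
  initF := R2.H301.i_initF _ rfl

theorem bF (W : Hp U T G D) :
    BF G (semAt U T G D L0 (D.u0 + 1) (rot L0) (rot L0)) where
  closeX := R2.H301.b_closeX _ rfl
  closen := R2.H267.fclosen
  cntend1 := R2.H413.cntend1 W.cnt
  cntend2 := R2.H413.cntend2 W.cnt
  cntend := R2.H413.cntend W.cnt
  doneend := R2.H413.doneend (fun r hr s hs h => by rw [dist_comm]; exact W.adj r hr s hs h)
  first := R2.H413.first_B
  closeY := R2.H301.b_closeY _ rfl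
  closeF := R2.H301.b_closeF _ rfl

/-- **No root**, with facts `E` about the first instant -/
theorem no_rootE (W : Hp U T G D) {E : Sem → Prop}
    (hE : ∀ L0 K : Sl G, LimL (posX (cen G D) (lts G D)) (Good (cen G D)) D.u0 L0 →
      LimR (posX (cen G D) (lts G D)) (Good (cen G D)) D.u0 K →
      E (semAt U T G D L0 D.u0 L0 K))
    {inv : List (List ℕ)}
    (hst : ∀ c ∈ inv, ∀ j ∈ c, j / 2 < 704 * (G.R + G.Y) ∧ isSt (j / 2 % 704) = true)
    (start : ∀ S, SF G S → TF G S → IF G S → E S → ∀ c ∈ inv, Hd (val S) (c.map nxl))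
    (step : ∀ S, SF G S → TF G S → (∀ c ∈ inv, Hd (val S) c) → ∀ c ∈ inv, Hd (val S) (c.map nxl))
    (fin : ∀ S, SF G S → BF G S → ¬ ∀ c ∈ inv, Hd (val S) c) : False := by
  have R := W.rings
  obtain ⟨L0, -, -, hL0⟩ := (R.sys W.wt.irr).exists_limL D.u0
  have hL1 := limL_add_one hL0
  refine no_cert W.wt.irr R hL0 hst ?_ ?_ ?_
  · intro K hK
    exact start _ (W.sF hL0) (W.tF le_rfl (by linarith) hL0 hK) iF (hE _ _ hL0 hK)
  · intro u h1 h2 L K hL hK h
    exact step _ (W.sF hL) (W.tF h1.le h2 hL hK) h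
  · exact fin _ (W.sF hL1) W.bF

/-- **No root.**  `start`, `step`, `fin`: the certificate. -/
theorem no_root (W : Hp U T G D) {inv : List (List ℕ)}
    (hst : ∀ c ∈ inv, ∀ j ∈ c, j / 2 < 704 * (G.R + G.Y) ∧ isSt (j / 2 % 704) = true)
    (start : ∀ S, SF G S → TF G S → IF G S → ∀ c ∈ inv, Hd (val S) (c.map nxl))
    (step : ∀ S, SF G S → TF G S → (∀ c ∈ inv, Hd (val S) c) → ∀ c ∈ inv, Hd (val S) (c.map nxl))
    (fin : ∀ S, SF G S → BF G S → ¬ ∀ c ∈ inv, Hd (val S) c) : False :=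
  W.no_rootE (E := fun _ => True) (fun _ _ _ _ => trivial) hst
    (fun S h1 h2 h3 _ => start S h1 h2 h3) step fin

end Hp

end Vale.Agent.P032.R2.H264
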