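import Vale.Agent.P032.R2.H264.Wd

/-!
# P032: an inductive invariant of a system of rings does not exist

`Wd.no_inv`: the facts at all instants of a period and a certificate give a contradiction.
-/

set_option autoImplicit false

open Set Filter Topology Metric

noncomputable section

namespace Vale.Agent.P032.R2.H264

open Vale.Agent.P032.Six Vale.Agent.P032.Words Vale.Agent.P032.S5.H767
open Vale.Agent.P032.R2.H741.Tp

namespace Wd

variable {U : Fin 6 → Set ℂ} {T : ℂ → Set (Fin 6)} {G : RD} {D : Dat}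

/-- **No certificate.**  `SF`, `TF`, `IF`, `BF`: the facts at the instants of the period. -/
theorem no_inv (W : Wd U T G D)
    (hS : ∀ u, D.u0 ≤ u → u ≤ D.u0 + 1 → ∀ L0 L K : Sl G,
      LimL (posX (cen G D) (lts G D)) (Good (cen G D)) u L → SF G (semAt U T G D L0 u L K))
    (hT : ∀ u, D.u0 ≤ u → u < D.u0 + 1 → ∀ L0 L K : Sl G,
      LimL (posX (cen G D) (lts G D)) (Good (cen G D)) u L →
      LimR (posX (cen G D) (lts G D)) (Good (cen G D)) u K → TF G (semAt U T G D L0 u L K))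
    (hI : ∀ L0 K : Sl G, LimL (posX (cen G D) (lts G D)) (Good (cen G D)) D.u0 L0 →
      IF G (semAt U T G D L0 D.u0 L0 K))
    (hB : ∀ L0 : Sl G, LimL (posX (cen G D) (lts G D)) (Good (cen G D)) D.u0 L0 →
      BF G (semAt U T G D L0 (D.u0 + 1) (rot L0) (rot L0)))
    {inv : List (List ℕ)}
    (hst : ∀ c ∈ inv, ∀ j ∈ c, j / 2 < 704 * (G.R + G.Y) ∧ isSt (j / 2 % 704) = true)
    (start : ∀ S, SF G S → TF G S → IF G S → ∀ c ∈ inv, Hd (val S) (c.map nxl))
    (step : ∀ S, SF G S → TF G S → (∀ c ∈ inv, Hd (val S) c) → ∀ c ∈ inv, Hd (val S) (c.map nxl))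
    (fin : ∀ S, SF G S → BF G S → ¬ ∀ c ∈ inv, Hd (val S) c) : False := by
  have R := W.rings
  obtain ⟨L0, -, -, hL0⟩ := (R.sys W.wt.irr).exists_limL D.u0
  have hL1 := limL_add_one hL0
  refine no_cert W.wt.irr R hL0 hst ?_ ?_ ?_
  · intro K hK
    exact start _ (hS _ le_rfl (by linarith) _ _ _ hL0) (hT _ le_rfl (by linarith) _ _ _ hL0 hK)
      (hI _ _ hL0)
  · intro u h1 h2 L K hL hK h
    exact step _ (hS _ h1.le h2.le _ _ _ hL) (hT _ h1.le h2 _ _ _ hL hK) h
  · exact fin _ (hS _ (by linarith) le_rfl _ _ _ hL1) (hB _ hL0)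

end Wd

end Vale.Agent.P032.R2.H264
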