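import Vale.Agent.P032.R2.H784.Ring

/-!
# P032: positions of coupled rings at one instant

`pos c (r, k) u = pt (c r) (u + k)`: the position `k` of the ring about `c r` at the time `u`.

* `pos_same1`, `pos_same5`, `pos_same3`: if the position `(r, k)` is the centre `c s`, then
  `(r, k + 1) = (s, k + 2)`, `(r, k - 1) = (s, k - 2)`, `(s, k + 3) = c r`;
* `pos_ident`: then `(s', k)` is the corner `c s + c s' - c r`;
* `nd_...`, `cross_...`: when two neighbours of a position are equal or opposite.
-/

set_option autoImplicit false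

open Set Filter Topology Metric

noncomputable section

namespace Vale.Agent.P032.S5.H767

open Vale.Agent.P032.Six

/-- translation -/
theorem pt_tr (y z : ℂ) (v : ℝ) : pt y v = y + (pt z v - z) := by
  unfold pt; ring

theorem pt_add_nat_mod (z : ℂ) (u : ℝ) (a : ℕ) :
    pt z (u + ((a % 6 : ℕ) : ℝ)) = pt z (u + (a : ℝ)) := by
  have key : ∀ n : ℕ, ∀ v : ℝ, pt z (v + 6 * (n : ℝ)) = pt z v := by
    intro n
    induction n with
    | zero => intro v; simp
    | succ n ih =>
      intro v
      have e : v + 6 * ((n + 1 : ℕ) : ℝ) = (v + 6 * (n : ℝ)) + 6 := by push_cast; ring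
      rw [e, pt_six, ih]
  have h1 : (a : ℝ) = ((a % 6 : ℕ) : ℝ) + 6 * ((a / 6 : ℕ) : ℝ) := by
    have := Nat.mod_add_div a 6
    exact_mod_cast this.symm
  rw [h1, ← add_assoc, key]

/-- the sum of two positions -/
theorem pt_fin_add (z : ℂ) (u : ℝ) (k j : Fin 6) :
    pt z (u + ((k + j : Fin 6).val : ℝ)) = pt z (u + (k.val : ℝ) + (j.val : ℝ)) := by
  rw [Fin.val_add, pt_add_nat_mod]
  push_cast
  rw [add_assoc]

variable {ι : Type} {c : ι → ℂ} {r s s' : ι} {k : Fin 6} {u : ℝ}

theorem dist_pos (c : ι → ℂ) (r : ι) (k : Fin 6) (u : ℝ) : dist (pos c (r, k) u) (c r) = 1 :=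
  dist_pt _ _

/-- the direction of a position -/
theorem pos_tr (c : ι → ℂ) (r s : ι) (k : Fin 6) (u : ℝ) :
    pos c (s, k) u = c s + (pos c (r, k) u - c r) := pt_tr _ _ _

theorem dist_cross (c : ι → ℂ) (r s : ι) (k : Fin 6) (u : ℝ) :
    dist (pos c (s, k) u) (pos c (r, k) u) = dist (c s) (c r) := by
  rw [pos_tr c r s, dist_eq_norm, dist_eq_norm]
  congr 1; ring

theorem pos_one (c : ι → ℂ) (r : ι) (k : Fin 6) (u : ℝ) :
    pos c (r, k + 1) u = pt (c r) (u + (k.val : ℝ) + 1) := by
  have h := pt_fin_add (c r) u k 1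
  have e : ((1 : Fin 6).val : ℝ) = 1 := by norm_num
  rw [e] at h
  exact h

theorem pos_two (c : ι → ℂ) (r : ι) (k : Fin 6) (u : ℝ) :
    pos c (r, k + 2) u = pt (c r) (u + (k.val : ℝ) + 2) := by
  have h := pt_fin_add (c r) u k 2
  have e : ((2 : Fin 6).val : ℝ) = 2 := by norm_num [Fin.val_ofNat]
  rw [e] at h
  exact h

theorem pos_three (c : ι → ℂ) (r : ι) (k : Fin 6) (u : ℝ) :
    pos c (r, k + 3) u = 2 * c r - pos c (r, k) u := by
  have h := pt_fin_add (c r) u k 3
  have e : ((3 : Fin 6).val : ℝ) = 3 := by norm_num [Fin.val_ofNat]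
  rw [e, pt_three] at h
  exact h

theorem dist_ring (c : ι → ℂ) (r : ι) (k : Fin 6) (u : ℝ) :
    dist (pos c (r, k) u) (pos c (r, k + 1) u) = 1 := by
  rw [pos_one]; exact dist_pt_one _ _

/-- the sum rule -/
theorem pos_sum (c : ι → ℂ) (r : ι) (k : Fin 6) (u : ℝ) :
    pos c (r, k) u + pos c (r, k + 2) u = pos c (r, k + 1) u + c r := by
  rw [pos_one, pos_two]; exact pt_sum _ _

/-- the two neighbours of a position on its ring -/
theorem pos_sum5 (c : ι → ℂ) (r : ι) (k : Fin 6) (u : ℝ) :
    pos c (r, k + 5) u + pos c (r, k + 1) u = pos c (r, k) u + c r := by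
  have h := pos_sum c r (k + 5) u
  have e1 : k + 5 + 2 = k + 1 := by
    rw [add_assoc]; rfl
  have e2 : k + 5 + 1 = k := by
    rw [add_assoc, show (5 : Fin 6) + 1 = 0 from rfl, add_zero]
  rwa [e1, e2] at h

theorem dist_ring5 (c : ι → ℂ) (r : ι) (k : Fin 6) (u : ℝ) :
    dist (pos c (r, k) u) (pos c (r, k + 5) u) = 1 := by
  have h := dist_ring c r (k + 5) u
  rw [add_assoc, show (5 : Fin 6) + 1 = 0 from rfl, add_zero, dist_comm] at h
  exact h

theorem pos_ne_centre (c : ι → ℂ) (r : ι) (k : Fin 6) (u : ℝ) : pos c (r, k) u ≠ c r := by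
  intro h
  have h1 := dist_pos c r k u
  rw [h, dist_self] at h1
  exact zero_ne_one h1

/-! ### a position which is a centre -/

/-- **same** -/
theorem pos_same1 (h : pos c (r, k) u = c s) : pos c (r, k + 1) u = pos c (s, k + 2) u := by
  rw [pos_tr c r s (k + 2) u]
  linear_combination -(pos_sum c r k u) + h

/-- **same** -/
theorem pos_same5 (h : pos c (r, k) u = c s) : pos c (r, k + 5) u = pos c (s, k + 4) u := by
  have h1 := pos_sum c r (k + 4) u
  have e1 : k + 4 + 2 = k := by
    rw [add_assoc, show (4 : Fin 6) + 2 = 0 from rfl, add_zero]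
  have e2 : k + 4 + 1 = k + 5 := by rw [add_assoc]; rfl
  rw [e1, e2] at h1
  rw [pos_tr c r s (k + 4) u]
  linear_combination -h1 + h

/-- the other centre -/
theorem pos_same3 (h : pos c (r, k) u = c s) : pos c (s, k + 3) u = c r := by
  rw [pos_three, pos_tr c r s k u]
  linear_combination -h

theorem same3_iff : pos c (r, k) u = c s ↔ pos c (s, k + 3) u = c r := by
  refine ⟨pos_same3, fun h => ?_⟩
  have h1 := pos_same3 h
  rwa [add_assoc, show (3 : Fin 6) + 3 = 0 from rfl, add_zero] at h1

/-- **ident**: the corner -/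
theorem pos_ident (h : pos c (r, k) u = c s) (s' : ι) :
    pos c (s', k) u = c s + c s' - c r := by
  rw [pos_tr c r s' k u, h]; ring

theorem dist_of_same (h : pos c (r, k) u = c s) : dist (c s) (c r) = 1 := by
  rw [← h]; exact dist_pos c r k u

/-- only one position is the centre -/
theorem same_unique {k' : Fin 6} (h : pos c (r, k) u = c s) (h' : pos c (r, k') u = c s) :
    k = k' := by
  have key : ∀ j : Fin 6, j ≠ 0 → ∀ k : Fin 6, pos c (r, k + j) u ≠ pos c (r, k) u := by
    intro j hj k hcon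
    have h3 := pos_three c r k u
    have hs := pos_sum c r k u
    have hn := pos_ne_centre c r
    have e12 : k + 1 + 2 = k + 3 := by rw [add_assoc]; rfl
    have e11 : k + 1 + 1 = k + 2 := by rw [add_assoc]; rfl
    have e31 : k + 1 + 3 = k + 4 := by rw [add_assoc]; rfl
    have e32 : k + 2 + 3 = k + 5 := by rw [add_assoc]; rfl
    have h4 := pos_three c r (k + 1) u
    have h5 := pos_three c r (k + 2) u
    rw [e31] at h4
    rw [e32] at h5
    fin_cases j
    · exact hj rfl
    · have hcon : pos c (r, k + 1) u = pos c (r, k) u := hcon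
      exact hn (k + 2) u (by linear_combination hs + hcon)
    · have hcon : pos c (r, k + 2) u = pos c (r, k) u := hcon
      -- `a1 = 2 a0`
      have h6 : pos c (r, k + 1) u - c r = 2 * (pos c (r, k) u - c r) := by
        linear_combination -hs + hcon
      have h7 : dist (pos c (r, k + 1) u) (c r) = 2 := by
        rw [dist_eq_norm, h6, norm_mul, ← dist_eq_norm, dist_pos]; simp
      rw [dist_pos] at h7; norm_num at h7
    · have hcon : pos c (r, k + 3) u = pos c (r, k) u := hcon
      exact hn k u (by linear_combination (1 / 2 : ℂ) * h3 - (1 / 2 : ℂ) * hcon)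
    · have hcon : pos c (r, k + 4) u = pos c (r, k) u := hcon
      -- `a4 = - a1 = a0`, `a2 = a1 - a0 = 2 a1`
      have h6 : pos c (r, k + 2) u - c r = 2 * (pos c (r, k + 1) u - c r) := by
        linear_combination hs + hcon - h4
      have h7 : dist (pos c (r, k + 2) u) (c r) = 2 := by
        rw [dist_eq_norm, h6, norm_mul, ← dist_eq_norm, dist_pos]; simp
      rw [dist_pos] at h7; norm_num at h7
    · have hcon : pos c (r, k + 5) u = pos c (r, k) u := hcon
      -- `a5 = - a2 = a0`, `a1 = a0 + a2 = 0`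
      exact hn (k + 1) u (by linear_combination -hs - hcon + h5)
  by_contra hne
  refine key (k' - k) (sub_ne_zero.2 (Ne.symm hne)) k ?_
  rw [add_sub_cancel, h, h']

/-! ### neighbours of a position -/

theorem nd_centre_ring1 (c : ι → ℂ) (r : ι) (k : Fin 6) (u : ℝ) :
    pos c (r, k + 1) u ≠ c r ∧ pos c (r, k + 1) u + c r ≠ 2 * pos c (r, k) u := by
  refine ⟨pos_ne_centre c r _ u, fun h => ?_⟩
  have hs := pos_sum c r k u
  refine (fun h7 => ?_ : dist (pos c (r, k + 1) u) (c r) ≠ 2) ?_
  · rw [dist_pos] at h7; norm_num at h7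
  · have h6 : pos c (r, k + 1) u - c r = 2 * (pos c (r, k) u - c r) := by
      linear_combination h
    rw [dist_eq_norm, h6, norm_mul, ← dist_eq_norm, dist_pos]; simp

theorem nd_centre_ring5 (c : ι → ℂ) (r : ι) (k : Fin 6) (u : ℝ) :
    pos c (r, k + 5) u ≠ c r ∧ pos c (r, k + 5) u + c r ≠ 2 * pos c (r, k) u := by
  refine ⟨pos_ne_centre c r _ u, fun h => ?_⟩
  refine (fun h7 => ?_ : dist (pos c (r, k + 5) u) (c r) ≠ 2) ?_
  · rw [dist_pos] at h7; norm_num at h7
  · have h6 : pos c (r, k + 5) u - c r = 2 * (pos c (r, k) u - c r) := by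
      linear_combination h
    rw [dist_eq_norm, h6, norm_mul, ← dist_eq_norm, dist_pos]; simp

theorem nd_ring_ring (c : ι → ℂ) (r : ι) (k : Fin 6) (u : ℝ) :
    pos c (r, k + 1) u ≠ pos c (r, k + 5) u ∧
      pos c (r, k + 1) u + pos c (r, k + 5) u ≠ 2 * pos c (r, k) u := by
  have h5 := pos_sum5 c r k u
  refine ⟨fun h => ?_, fun h => ?_⟩
  · -- `2 a1 = a0`
    have h6 : pos c (r, k) u - c r = 2 * (pos c (r, k + 1) u - c r) := by
      linear_combination -h5 - h
    have h7 : dist (pos c (r, k) u) (c r) = 2 := by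
      rw [dist_eq_norm, h6, norm_mul, ← dist_eq_norm, dist_pos]; simp
    rw [dist_pos] at h7; norm_num at h7
  · exact pos_ne_centre c r k u (by linear_combination h5 - h)

/-- the cross neighbour and the centre are equal -/
theorem cross_eq_centre : pos c (s, k) u = c r ↔ pos c (r, k + 3) u = c s := same3_iff

/-- the cross neighbour and the centre are opposite -/
theorem cross_mid_centre : pos c (s, k) u + c r = 2 * pos c (r, k) u ↔ pos c (r, k) u = c s := by
  rw [pos_tr c r s k u]
  constructor <;> intro h <;> linear_combination -h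

theorem cross_eq_ring1 : pos c (s, k) u = pos c (r, k + 1) u ↔ pos c (r, k + 2) u = c s := by
  have hs := pos_sum c r k u
  rw [pos_tr c r s k u]
  constructor <;> intro h <;> linear_combination hs - h

theorem cross_mid_ring1 :
    pos c (s, k) u + pos c (r, k + 1) u = 2 * pos c (r, k) u ↔ pos c (r, k + 5) u = c s := by
  have h5 := pos_sum5 c r k u
  rw [pos_tr c r s k u]
  constructor <;> intro h <;> linear_combination h5 - h

theorem cross_eq_ring5 : pos c (s, k) u = pos c (r, k + 5) u ↔ pos c (r, k + 4) u = c s := by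
  have h1 := pos_sum c r (k + 4) u
  have e1 : k + 4 + 2 = k := by
    rw [add_assoc, show (4 : Fin 6) + 2 = 0 from rfl, add_zero]
  have e2 : k + 4 + 1 = k + 5 := by rw [add_assoc]; rfl
  rw [e1, e2] at h1
  rw [pos_tr c r s k u]
  constructor <;> intro h <;> linear_combination h1 - h

theorem cross_mid_ring5 :
    pos c (s, k) u + pos c (r, k + 5) u = 2 * pos c (r, k) u ↔ pos c (r, k + 1) u = c s := by
  have h5 := pos_sum5 c r k u
  rw [pos_tr c r s k u]
  constructor <;> intro h <;> linear_combination h5 - h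

theorem cross_cross_eq : pos c (s, k) u = pos c (s', k) u ↔ c s = c s' := by
  rw [pos_tr c s s' k u]
  constructor <;> intro h <;> linear_combination h

theorem cross_cross_mid :
    pos c (s, k) u + pos c (s', k) u = 2 * pos c (r, k) u ↔ c s + c s' = 2 * c r := by
  rw [pos_tr c r s k u, pos_tr c r s' k u]
  constructor <;> intro h <;> linear_combination h

end Vale.Agent.P032.S5.H767
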