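import Vale.Agent.P032.R2.H264.Mem
import Vale.Agent.P032.R2.H264.Same
import Vale.Agent.P032.R2.H267.Zone

/-!
# P032: the latches of the transition systems

Each latch is a function `μ : ℝ → Prop` of the time with one-sided limits; `m` is the value just
before the instant `u` (`MemL μ u m`), `m'` the value just after `u` (`MemR μ u m'`).

* `firstM u0`: the anchor instant `u0` is not passed;
* `nM U z i k`: the direction of the position `k` is in the dual cone of `i`;
* `sM U z i k u0`: this happened at an earlier time of the period;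
* `gM U z i q u0`: at an earlier time some line had `i` near and `q` far;
* `cM z A u0 j`: at least `j` points of `A` were met (`A` finite on the circle).
-/

set_option autoImplicit false

open Set Filter Topology Metric

noncomputable section

namespace Vale.Agent.P032.S5.H767

open Vale.Agent.P032.Six Vale.Agent.P032.Words

/-! ### families of latches -/

section
variable {J M : Type} [Finite J] {μ : ℝ → J → M} {u : ℝ} {m : J → M}

theorem memL_pi : MemL μ u m ↔ ∀ j, MemL (fun v => μ v j) u (m j) := by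
  unfold MemL
  rw [← eventually_all]
  exact eventually_congr (Eventually.of_forall fun v => funext_iff)

theorem memR_pi : MemR μ u m ↔ ∀ j, MemR (fun v => μ v j) u (m j) := by
  unfold MemR
  rw [← eventually_all]
  exact eventually_congr (Eventually.of_forall fun v => funext_iff)

end

theorem memL_const {M : Type} {x : M} {u : ℝ} {m : M} (h : MemL (fun _ => x) u m) : m = x :=
  h.unique (Eventually.of_forall fun _ => rfl)

theorem memR_const {M : Type} {x : M} {u : ℝ} {m : M} (h : MemR (fun _ => x) u m) : m = x :=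
  h.unique (Eventually.of_forall fun _ => rfl)

theorem reg_const {M : Type} (x : M) : Reg fun _ => x :=
  fun _ => ⟨⟨x, Eventually.of_forall fun _ => rfl⟩, x, Eventually.of_forall fun _ => rfl⟩

/-! ### first -/

/-- the anchor instant is not passed -/
def firstM (u0 v : ℝ) : Prop := v < u0

theorem firstM_reg (u0 : ℝ) : Reg (firstM u0) := by
  intro u
  constructor
  · rcases le_or_gt u u0 with h | h
    · exact ⟨True, memL_iff.2 ⟨u - 1, by linarith, fun v _ h2 => eq_true (h2.trans_le h)⟩⟩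
    · exact ⟨False, memL_iff.2 ⟨u0, h, fun v h1 _ => eq_false (not_lt.2 h1.le)⟩⟩
  · rcases lt_or_ge u u0 with h | h
    · exact ⟨True, memR_iff.2 ⟨u0, h, fun v _ h2 => eq_true h2⟩⟩
    · exact ⟨False, memR_iff.2 ⟨u + 1, by linarith, fun v h1 _ =>
        eq_false (not_lt.2 (h.trans h1.le))⟩⟩

theorem firstM_left {u0 u : ℝ} {m : Prop} (hm : MemL (firstM u0) u m) : m ↔ u ≤ u0 := by
  rcases le_or_gt u u0 with h | h
  · have h1 : MemL (firstM u0) u True :=
      memL_iff.2 ⟨u - 1, by linarith, fun v _ h2 => eq_true (h2.trans_le h)⟩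
    rw [hm.unique h1]
    exact iff_of_true trivial h
  · have h1 : MemL (firstM u0) u False :=
      memL_iff.2 ⟨u0, h, fun v h1 _ => eq_false (not_lt.2 h1.le)⟩
    rw [hm.unique h1]
    exact iff_of_false id (not_le.2 h)

theorem firstM_right {u0 u : ℝ} (h0 : u0 ≤ u) {m' : Prop} (hm : MemR (firstM u0) u m') : ¬ m' := by
  have h1 : MemR (firstM u0) u False :=
    memR_iff.2 ⟨u + 1, by linarith, fun v h1 _ => eq_false (not_lt.2 (h0.trans h1.le))⟩
  rw [hm.unique h1]
  exact id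

/-! ### labels -/

section
variable {U : Fin 6 → Set ℂ} {z : ℂ} {i q : Fin 6} {k : Fin 6} {u0 u : ℝ} {m m' : Prop}

theorem nc_closed : IsClosed {v | Nc U z i v} := Nc.isClosed

theorem nc_cvx (U : Fin 6 → Set ℂ) (z : ℂ) (i : Fin 6) : Cvx {v | Nc U z i v} :=
  fun _ hx _ hy _ h2 _ h3 h4 => Nc.conv hx hy h3 h4 h2

theorem closed_shift {S : Set ℝ} (hS : IsClosed S) (a : ℝ) : IsClosed {v | v + a ∈ S} :=
  hS.preimage (continuous_id.add continuous_const)

/-- the label of the position `k` as a function of the time -/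
def nM (U : Fin 6 → Set ℂ) (z : ℂ) (i k : Fin 6) (v : ℝ) : Prop := Nc U z i (v + (k.val : ℝ))

theorem nM_reg : Reg (nM U z i k) := ((nc_cvx U z i).shift (k.val : ℝ)).reg

/-- **n0L** -/
theorem nM_left (hm : MemL (nM U z i k) u m) (h : m) : Nc U z i (u + (k.val : ℝ)) :=
  memL_mem (S := {v | v + (k.val : ℝ) ∈ {v | Nc U z i v}}) (closed_shift nc_closed _) hm h

/-- **n0R** -/
theorem nM_right (hm : MemR (nM U z i k) u m') (h : m') : Nc U z i (u + (k.val : ℝ)) :=
  memR_mem (S := {v | v + (k.val : ℝ) ∈ {v | Nc U z i v}}) (closed_shift nc_closed _) hm h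

/-- the value of the latch, as an eventual statement -/
theorem nM_left_iff (hm : MemL (nM U z i k) u m) :
    m ↔ ∀ᶠ v in 𝓝[<] u, Nc U z i (v + (k.val : ℝ)) := by
  constructor
  · intro h
    exact hm.mono fun v hv => Eq.mpr hv h
  · intro h
    obtain ⟨v, h1, h2⟩ := (Filter.Eventually.and hm h).exists
    exact h1 ▸ h2

theorem nM_right_iff (hm : MemR (nM U z i k) u m') :
    m' ↔ ∀ᶠ v in 𝓝[>] u, Nc U z i (v + (k.val : ℝ)) := by
  constructor
  · intro h
    exact hm.mono fun v hv => Eq.mpr hv h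
  · intro h
    obtain ⟨v, h1, h2⟩ := (Filter.Eventually.and hm h).exists
    exact h1 ▸ h2

/-- **closing of the labels** -/
theorem nM_rot : MemL (nM U z i k) (u + 1) m ↔ MemL (nM U z i (k + 1)) u m :=
  memL_rot (S := {v | Nc U z i v}) (fun _ => Nc.per) k

/-! ### labels seen earlier -/

/-- the position `k` had the label `i` at an earlier time of the period -/
def sM (U : Fin 6 → Set ℂ) (z : ℂ) (i k : Fin 6) (u0 v : ℝ) : Prop :=
  seen {w | Nc U z i (w + (k.val : ℝ))} u0 v

theorem sM_reg : Reg (sM U z i k u0) := seen_reg _ _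

theorem sM_step (h0 : u0 ≤ u) (hm : MemL (sM U z i k u0) u m) (hm' : MemR (sM U z i k u0) u m') :
    (m ↔ ∃ w, Nc U z i (w + (k.val : ℝ)) ∧ u0 ≤ w ∧ w < u) ∧
      (m' ↔ m ∨ Nc U z i (u + (k.val : ℝ))) :=
  seen_step (S := {w | Nc U z i (w + (k.val : ℝ))}) (closed_shift nc_closed _) h0 hm hm'

theorem sM_left (hm : MemL (sM U z i k u0) u m) :
    m ↔ ∃ w, Nc U z i (w + (k.val : ℝ)) ∧ u0 ≤ w ∧ w < u := by
  rw [hm.unique seen_memL]; rfl

theorem sM_init (hm : MemL (sM U z i k u0) u0 m) : ¬ m := seen_init hm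

/-! ### lines seen earlier -/

/-- the times at which some line has `i` near and `q` far -/
def gS (U : Fin 6 → Set ℂ) (z : ℂ) (i q : Fin 6) : Set ℝ :=
  {w | ∃ k : Fin 6, Nc U z i (w + (k.val : ℝ)) ∧ Nc U z q (w + ((k + 3 : Fin 6).val : ℝ))}

theorem gS_closed : IsClosed (gS U z i q) := by
  have h1 : gS U z i q = ⋃ k : Fin 6, ({w | Nc U z i (w + (k.val : ℝ))} ∩
      {w | Nc U z q (w + ((k + 3 : Fin 6).val : ℝ))}) := by
    ext w
    simp [gS]
  rw [h1]
  exact isClosed_iUnion_of_finite fun k =>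
    (closed_shift nc_closed _).inter (closed_shift nc_closed _)

def gM (U : Fin 6 → Set ℂ) (z : ℂ) (i q : Fin 6) (u0 v : ℝ) : Prop := seen (gS U z i q) u0 v

theorem gM_reg : Reg (gM U z i q u0) := seen_reg _ _

theorem gM_step (h0 : u0 ≤ u) (hm : MemL (gM U z i q u0) u m) (hm' : MemR (gM U z i q u0) u m') :
    (m ↔ ∃ w ∈ gS U z i q, u0 ≤ w ∧ w < u) ∧ (m' ↔ m ∨ u ∈ gS U z i q) :=
  seen_step gS_closed h0 hm hm'

theorem gM_init (hm : MemL (gM U z i q u0) u0 m) : ¬ m := seen_init hm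

/-- **gline**, from the uniqueness of the line: `hone` is `line1` -/
theorem gM_line (hone : ∀ v w, Nc U z i v → Nc U z q (v + 3) → Nc U z i w → Nc U z q (w + 3) →
      pt z v = pt z w) (h1 : u < u0 + 1)
    (hm : MemL (gM U z i q u0) u m) (h : m) (hi : Nc U z i (u + (k.val : ℝ)))
    (hq : Nc U z q (u + ((k + 3 : Fin 6).val : ℝ))) (h0 : u0 ≤ u) : False := by
  have h2 : seen (gS U z i q) u0 u := by
    have := hm.unique seen_memL
    rw [this] at h; exact h
  obtain ⟨w, ⟨k', h3, h4⟩, h5, h6⟩ := h2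
  have key : ∀ (v : ℝ) (k : Fin 6), Nc U z q (v + ((k + 3 : Fin 6).val : ℝ)) →
      Nc U z q (v + (k.val : ℝ) + 3) := by
    intro v k h
    intro r hr
    have h7 := h r hr
    have e : pt z (v + ((k + 3 : Fin 6).val : ℝ)) = pt z (v + (k.val : ℝ) + 3) := by
      have := pt_fin_add z v k 3
      have e3 : ((3 : Fin 6).val : ℝ) = 3 := by norm_num [Fin.val_ofNat]
      rwa [e3] at this
    rwa [e] at h7
  have h8 := hone _ _ hi (key _ _ hq) h3 (key _ _ h4)
  obtain ⟨h9, -⟩ := pt_inj_period h0 h1 h5 (h6.trans h1) h8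
  linarith

end

/-! ### counting -/

section
variable {z : ℂ} {A : Set ℂ} {u0 u : ℝ} {j n : ℕ} {m m' : Prop}

/-- at least `j` points of `A` were met in `[u0, v)` -/
def cM (z : ℂ) (A : Set ℂ) (u0 : ℝ) (j : ℕ) (v : ℝ) : Prop := j ≤ nev (evA z A) u0 v

theorem cM_reg (hA : (A ∩ sphere z 1).Finite) : Reg (cM z A u0 j) :=
  reg_map (nev_reg (evA_finite hA) u0) fun x => j ≤ x

theorem cM_left (hA : (A ∩ sphere z 1).Finite) (hm : MemL (cM z A u0 j) u m) :
    m ↔ j ≤ nev (evA z A) u0 u := by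
  have h1 : MemL (cM z A u0 j) u (j ≤ nev (evA z A) u0 u) :=
    (nev_memL (evA_finite hA u0 u)).mono fun v hv => by
      show (j ≤ nev (evA z A) u0 v) = _
      rw [hv]
  rw [hm.unique h1]

theorem cM_right (hA : (A ∩ sphere z 1).Finite) (h0 : u0 ≤ u) (hm : MemR (cM z A u0 j) u m') :
    m' ↔ j ≤ nev (evA z A) u0 u + evc (evA z A) u := by
  have h1 : MemR (cM z A u0 j) u (j ≤ nev (evA z A) u0 u + evc (evA z A) u) :=
    (nev_memR h0 (lt_add_one u) (evA_finite hA u0 (u + 1))).mono fun v hv => by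
      show (j ≤ nev (evA z A) u0 v) = _
      rw [hv]
  rw [hm.unique h1]

/-- **cnt0** -/
theorem cM_init (hA : (A ∩ sphere z 1).Finite) (hj : 0 < j) (hm : MemL (cM z A u0 j) u0 m) : ¬ m := by
  rw [cM_left hA hm, nev_self]; omega

/-- **cntend** -/
theorem cM_end (hA : (A ∩ sphere z 1).Finite) (hj : j ≤ (A ∩ sphere z 1).ncard)
    (hm : MemL (cM z A u0 j) (u0 + 1) m) : m := by
  rw [cM_left hA hm, nev_period]; exact hj

/-- the latch stays -/
theorem cM_mono (hA : (A ∩ sphere z 1).Finite) (h0 : u0 ≤ u) (hm : MemL (cM z A u0 j) u m)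
    (hm' : MemR (cM z A u0 j) u m') (h : m) : m' := by
  rw [cM_right hA h0 hm']
  rw [cM_left hA hm] at h
  omega

/-- **cntmono** -/
theorem cM_down {j' : ℕ} (hA : (A ∩ sphere z 1).Finite) (hj : j ≤ j') {n n' : Prop}
    (hn : MemL (cM z A u0 j) u n) (hn' : MemL (cM z A u0 j') u n') (h : n') : n := by
  rw [cM_left hA hn]
  rw [cM_left hA hn'] at h
  omega

/-- an event raises the level -/
theorem cM_up {k : Fin 6} (hA : (A ∩ sphere z 1).Finite) (h0 : u0 ≤ u)
    (hk : pt z (u + (k.val : ℝ)) ∈ A) (hm : MemL (cM z A u0 j) u m)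
    (hm' : MemR (cM z A u0 (j + 1)) u m') (h : m) : m' := by
  rw [cM_right hA h0 hm']
  rw [cM_left hA hm] at h
  have := evc_pos (E := evA z A) (u := u) (k := k) hk
  omega

/-- two events raise the level by two -/
theorem cM_up2 {k k' : Fin 6} (hA : (A ∩ sphere z 1).Finite) (h0 : u0 ≤ u) (hkk : k ≠ k')
    (hk : pt z (u + (k.val : ℝ)) ∈ A) (hk' : pt z (u + (k'.val : ℝ)) ∈ A)
    (hm : MemL (cM z A u0 j) u m) (hm' : MemR (cM z A u0 (j + 2)) u m') (h : m) : m' := by
  rw [cM_right hA h0 hm']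
  rw [cM_left hA hm] at h
  have := evc_two (E := evA z A) (u := u) hkk hk hk'
  omega

/-- one event at the first level -/
theorem cM_up1 {k : Fin 6} (hA : (A ∩ sphere z 1).Finite) (h0 : u0 ≤ u)
    (hk : pt z (u + (k.val : ℝ)) ∈ A) (hm' : MemR (cM z A u0 1) u m') : m' := by
  rw [cM_right hA h0 hm']
  have := evc_pos (E := evA z A) (u := u) (k := k) hk
  omega

theorem cM_up2' {k k' : Fin 6} (hA : (A ∩ sphere z 1).Finite) (h0 : u0 ≤ u) (hkk : k ≠ k')
    (hk : pt z (u + (k.val : ℝ)) ∈ A) (hk' : pt z (u + (k'.val : ℝ)) ∈ A)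
    (hm' : MemR (cM z A u0 2) u m') : m' := by
  rw [cM_right hA h0 hm']
  have := evc_two (E := evA z A) (u := u) hkk hk hk'
  omega

/-- at most `n` points: the level before an event is below `n` -/
theorem cM_full {k : Fin 6} (hA : (A ∩ sphere z 1).Finite) (hn : (A ∩ sphere z 1).ncard ≤ n)
    (h0 : u0 ≤ u) (h1 : u < u0 + 1) (hk : pt z (u + (k.val : ℝ)) ∈ A)
    (hm : MemL (cM z A u0 n) u m) : ¬ m := by
  rw [cM_left hA hm]
  have h2 := evc_pos (E := evA z A) (u := u) (k := k) hk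
  have h3 := nev_add_le (evA_finite hA) h0 h1
  rw [nev_period] at h3
  omega

/-- two events: the level before is below `n - 1` -/
theorem cM_full2 {k k' : Fin 6} (hA : (A ∩ sphere z 1).Finite)
    (hn : (A ∩ sphere z 1).ncard ≤ n + 1) (h0 : u0 ≤ u) (h1 : u < u0 + 1) (hkk : k ≠ k')
    (hk : pt z (u + (k.val : ℝ)) ∈ A) (hk' : pt z (u + (k'.val : ℝ)) ∈ A)
    (hm : MemL (cM z A u0 n) u m) : ¬ m := by
  rw [cM_left hA hm]
  have h2 := evc_two (E := evA z A) (u := u) hkk hk hk'
  have h3 := nev_add_le (evA_finite hA) h0 h1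
  rw [nev_period] at h3
  omega

/-- one point: no two events of an instant -/
theorem cM_one {k k' : Fin 6} (hn : (A ∩ sphere z 1).ncard ≤ 1)
    (hA : (A ∩ sphere z 1).Finite) (h0 : u0 ≤ u) (h1 : u < u0 + 1) (hkk : k ≠ k')
    (hk : pt z (u + (k.val : ℝ)) ∈ A) (hk' : pt z (u + (k'.val : ℝ)) ∈ A) : False := by
  have h2 := evc_two (E := evA z A) (u := u) hkk hk hk'
  have h3 := nev_add_le (evA_finite hA) h0 h1
  rw [nev_period] at h3
  omega

/-- two points: no three events of an instant -/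
theorem cM_three {k k' k'' : Fin 6} (hn : (A ∩ sphere z 1).ncard ≤ 2)
    (hA : (A ∩ sphere z 1).Finite) (h0 : u0 ≤ u) (h1 : u < u0 + 1) (hkk : k ≠ k') (hkk' : k ≠ k'')
    (hkk'' : k' ≠ k'') (hk : pt z (u + (k.val : ℝ)) ∈ A) (hk' : pt z (u + (k'.val : ℝ)) ∈ A)
    (hk'' : pt z (u + (k''.val : ℝ)) ∈ A) : False := by
  have h2 := evc_three (E := evA z A) (u := u) hkk hkk' hkk'' hk hk' hk''
  have h3 := nev_add_le (evA_finite hA) h0 h1
  rw [nev_period] at h3
  omega

/-- **cntup** -/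
theorem cM_rise (hA : (A ∩ sphere z 1).Finite) (h0 : u0 ≤ u) (hm : MemL (cM z A u0 j) u m)
    (hm' : MemR (cM z A u0 j) u m') (h : m') : m ∨ ∃ k : Fin 6, pt z (u + (k.val : ℝ)) ∈ A := by
  by_contra hcon
  push Not at hcon
  rw [cM_right hA h0 hm'] at h
  rw [cM_left hA hm] at hcon
  have h1 : evc (evA z A) u = 0 := evc_eq_zero.2 fun k hk => hcon.2 k hk
  omega

/-- **cntup**, two levels -/
theorem cM_rise2 (hA : (A ∩ sphere z 1).Finite) (h0 : u0 ≤ u) {p : Prop}
    (hm : MemL (cM z A u0 (j + 1)) u m) (hp : MemL (cM z A u0 j) u p)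
    (hm' : MemR (cM z A u0 (j + 1)) u m') (h : m') :
    m ∨ p ∨ ∃ k k' : Fin 6, k ≠ k' ∧ pt z (u + (k.val : ℝ)) ∈ A ∧
      pt z (u + (k'.val : ℝ)) ∈ A := by
  by_contra hcon
  push Not at hcon
  rw [cM_right hA h0 hm'] at h
  rw [cM_left hA hm, cM_left hA hp] at hcon
  obtain ⟨k, k', h1, h2, h3⟩ := evc_two_le (E := evA z A) (u := u) (by omega)
  exact hcon.2.2 k k' h1 h2 h3

end

/-! ### one named point: `done` -/

section
variable {z q : ℂ} {u0 u : ℝ} {m m' : Prop} {k k' : Fin 6}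

/-- the named point `q` was met -/
def dM (z q : ℂ) (u0 v : ℝ) : Prop := cM z {q} u0 1 v

theorem single_fin : ({q} ∩ sphere z 1 : Set ℂ).Finite := (Set.finite_singleton q).subset inter_subset_left

theorem single_ncard_le : ({q} ∩ sphere z 1 : Set ℂ).ncard ≤ 1 := by
  have := Set.ncard_le_ncard (s := ({q} ∩ sphere z 1 : Set ℂ)) inter_subset_left (Set.finite_singleton q)
  rwa [Set.ncard_singleton] at this

theorem dM_reg : Reg (dM z q u0) := cM_reg single_fin

theorem dM_init (hm : MemL (dM z q u0) u0 m) : ¬ m := cM_init single_fin one_pos hm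

theorem dM_end (hq : dist q z = 1) (hm : MemL (dM z q u0) (u0 + 1) m) : m := by
  refine cM_end single_fin ?_ hm
  rw [inter_eq_left.2 (by rintro x rfl; exact mem_sphere.2 hq), Set.ncard_singleton]

theorem dM_mono (h0 : u0 ≤ u) (hm : MemL (dM z q u0) u m) (hm' : MemR (dM z q u0) u m') (h : m) :
    m' := cM_mono single_fin h0 hm hm' h

theorem dM_hit (h0 : u0 ≤ u) (hk : pt z (u + (k.val : ℝ)) = q) (hm' : MemR (dM z q u0) u m') : m' :=
  cM_up1 (A := {q}) single_fin h0 hk hm'

theorem dM_not (h0 : u0 ≤ u) (h1 : u < u0 + 1) (hk : pt z (u + (k.val : ℝ)) = q)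
    (hm : MemL (dM z q u0) u m) : ¬ m :=
  cM_full (A := {q}) single_fin single_ncard_le h0 h1 hk hm

theorem dM_uniq (hk : pt z (u + (k.val : ℝ)) = q) (hk' : pt z (u + (k'.val : ℝ)) = q) : k = k' :=
  (pt_inj_period le_rfl (lt_add_one u) le_rfl (lt_add_one u) (hk.trans hk'.symm)).2

theorem dM_rise (h0 : u0 ≤ u) (hm : MemL (dM z q u0) u m) (hm' : MemR (dM z q u0) u m') (h : m') :
    m ∨ ∃ k : Fin 6, pt z (u + (k.val : ℝ)) = q := cM_rise (A := {q}) single_fin h0 hm hm' h

/-- **anchor**: in the period the named point is met only at `u0` and only at the position `k0` -/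
theorem anchor_iff {k0 : Fin 6} (hk0 : pt z (u0 + (k0.val : ℝ)) = q) (h0 : u0 ≤ u) (h1 : u < u0 + 1) :
    pt z (u + (k.val : ℝ)) = q ↔ u = u0 ∧ k = k0 := by
  constructor
  · intro h
    obtain ⟨h2, h3⟩ := pt_inj_period h0 h1 le_rfl (lt_add_one u0) (h.trans hk0.symm)
    exact ⟨h2, h3⟩
  · rintro ⟨rfl, rfl⟩
    exact hk0

end

end Vale.Agent.P032.S5.H767
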