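import Vale.Agent.P032.R2.H137.Induct
import Vale.Agent.P032.R2.H137.JPath

/-!
# P032: memories of the induction in time

The latches of a transition system for coupled rings as functions of the time with one-sided limits.

* `EvF E u0`: finitely many events in a period; `nev E u0 v`: the number of events in `[u0, v)`;
  `nev_memL`, `nev_memR`: the step adds the number `evc E u` of the events of the instant;
* `seen S u0 v`: some time of `[u0, v)` is in the closed set `S`; `seen_step`;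
* `arc_reg`: membership in a closed set which is convex below length 3.
-/

set_option autoImplicit false

open Set Filter Topology Metric

noncomputable section

namespace Vale.Agent.P032.S5.H767

open Vale.Agent.P032.Six Vale.Agent.P032.Words

/-! ### counting events -/

/-- the events of `E` in the interval `[u0, v)` -/
def evS (E : Set (ℝ × Fin 6)) (u0 v : ℝ) : Set (ℝ × Fin 6) := {x | x ∈ E ∧ u0 ≤ x.1 ∧ x.1 < v}

/-- the number of events in `[u0, v)` -/
def nev (E : Set (ℝ × Fin 6)) (u0 v : ℝ) : ℕ := (evS E u0 v).ncard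

/-- the positions of the events of the instant `u` -/
def evp (E : Set (ℝ × Fin 6)) (u : ℝ) : Set (Fin 6) := {k | (u, k) ∈ E}

/-- the number of events of the instant `u` -/
def evc (E : Set (ℝ × Fin 6)) (u : ℝ) : ℕ := (evp E u).ncard

section
variable {E : Set (ℝ × Fin 6)} {u0 u v : ℝ}

theorem evS_mono (h : u ≤ v) : evS E u0 u ⊆ evS E u0 v := fun _ hx => ⟨hx.1, hx.2.1, hx.2.2.trans_le h⟩

theorem nev_of_le (h : v ≤ u0) : nev E u0 v = 0 := by
  unfold nev
  have : evS E u0 v = ∅ := by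
    ext x
    simp only [evS, mem_ofPred_eq, mem_empty_iff_false, iff_false]
    rintro ⟨-, h1, h2⟩
    linarith
  rw [this, Set.ncard_empty]

theorem nev_self : nev E u0 u0 = 0 := nev_of_le le_rfl

theorem nev_mono (hf : (evS E u0 v).Finite) (h : u ≤ v) : nev E u0 u ≤ nev E u0 v :=
  Set.ncard_le_ncard (evS_mono h) hf

/-- before `u` the count is constant -/
theorem nev_left (hf : (evS E u0 u).Finite) : ∃ a < u, ∀ w, a < w → w < u → nev E u0 w = nev E u0 u := by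
  -- the last event before `u`
  have h1 : ∀ᶠ w in 𝓝[<] u, ∀ x ∈ evS E u0 u, x.1 < w := by
    rw [Filter.eventually_all_finite hf]
    intro x hx
    exact mem_nhdsWithin_of_mem_nhds (Ioi_mem_nhds hx.2.2)
  obtain ⟨a, ha, h2⟩ := (mem_nhdsLT_iff_exists_Ioo_subset).1 h1
  refine ⟨a, ha, fun w h3 h4 => ?_⟩
  have h5 : ∀ x ∈ evS E u0 u, x.1 < w := h2 ⟨h3, h4⟩
  unfold nev
  congr 1
  refine Subset.antisymm (evS_mono h4.le) fun x hx => ⟨hx.1, hx.2.1, h5 x hx⟩

/-- after `u` the count has the events of `u` -/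
theorem nev_right (h0 : u0 ≤ u) {u1 : ℝ} (h1 : u < u1) (hf : (evS E u0 u1).Finite) :
    ∃ b > u, ∀ w, u < w → w < b → nev E u0 w = nev E u0 u + evc E u := by
  have h2 : ∀ᶠ w in 𝓝[>] u, ∀ x ∈ evS E u0 u1, u < x.1 → w < x.1 := by
    rw [Filter.eventually_all_finite hf]
    intro x hx
    by_cases h3 : u < x.1
    · filter_upwards [mem_nhdsWithin_of_mem_nhds (Iio_mem_nhds h3)] with w hw _
      exact hw
    · exact Eventually.of_forall fun w h4 => absurd h4 h3
  obtain ⟨b, hb, h3⟩ := (mem_nhdsGT_iff_exists_Ioo_subset).1 h2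
  refine ⟨min b u1, lt_min hb h1, fun w h4 h5 => ?_⟩
  have h6 : ∀ x ∈ evS E u0 u1, u < x.1 → w < x.1 := h3 ⟨h4, h5.trans_le (min_le_left _ _)⟩
  have h7 : w < u1 := h5.trans_le (min_le_right _ _)
  have h8 : evS E u0 w = evS E u0 u ∪ (fun k : Fin 6 => (u, k)) '' evp E u := by
    ext x
    constructor
    · rintro ⟨h9, h10, h11⟩
      rcases lt_trichotomy x.1 u with h12 | h12 | h12
      · exact Or.inl ⟨h9, h10, h12⟩
      · right
        refine ⟨x.2, ?_, ?_⟩
        · show (u, x.2) ∈ E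
          rw [← h12]; exact h9
        · show (u, x.2) = x
          rw [← h12]
      · exact absurd (h6 x ⟨h9, h10, h11.trans h7⟩ h12) (not_lt.2 h11.le)
    · rintro (h9 | ⟨k, h9, rfl⟩)
      · exact ⟨h9.1, h9.2.1, h9.2.2.trans h4⟩
      · exact ⟨h9, h0, h4⟩
  unfold nev evc
  rw [h8, Set.ncard_union_eq ?_ (hf.subset (evS_mono h1.le)) (Set.toFinite _)]
  · congr 1
    exact Set.ncard_image_of_injective _ fun k k' hk => (Prod.mk.inj hk).2
  · rw [Set.disjoint_left]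
    rintro x hx ⟨k, -, rfl⟩
    exact lt_irrefl _ hx.2.2

theorem nev_memL (hf : (evS E u0 u).Finite) : MemL (nev E u0) u (nev E u0 u) :=
  memL_iff.2 (nev_left hf)

theorem nev_memR (h0 : u0 ≤ u) {u1 : ℝ} (h1 : u < u1) (hf : (evS E u0 u1).Finite) :
    MemR (nev E u0) u (nev E u0 u + evc E u) :=
  memR_iff.2 (nev_right h0 h1 hf)

/-- the events of a bounded interval are finite -/
def EvF (E : Set (ℝ × Fin 6)) : Prop := ∀ a b, (evS E a b).Finite

theorem nev_reg (hf : EvF E) (u0 : ℝ) : Reg (nev E u0) := by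
  intro u
  refine ⟨⟨_, nev_memL (hf _ _)⟩, ?_⟩
  rcases le_or_gt u0 u with h | h
  · exact ⟨_, nev_memR h (lt_add_one u) (hf _ _)⟩
  · exact ⟨0, memR_iff.2 ⟨u0, h, fun w _ h2 => nev_of_le h2.le⟩⟩

/-- events before `u` and at `u` are at most the events of the period -/
theorem nev_add_le (hf : EvF E) {u1 : ℝ} (h0 : u0 ≤ u) (h1 : u < u1) :
    nev E u0 u + evc E u ≤ nev E u0 u1 := by
  obtain ⟨b, hb, h2⟩ := nev_right (E := E) h0 h1 (hf _ _)
  obtain ⟨w, h3, h4⟩ := exists_between (lt_min hb h1)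
  rw [← h2 w h3 (h4.trans_le (min_le_left _ _))]
  exact nev_mono (hf _ _) (h4.trans_le (min_le_right _ _)).le

/-- the step of the count -/
theorem nev_step (hf : EvF E) (h0 : u0 ≤ u) {m m' : ℕ} (hm : MemL (nev E u0) u m)
    (hm' : MemR (nev E u0) u m') : m = nev E u0 u ∧ m' = m + evc E u := by
  have h1 := hm.unique (nev_memL (hf _ _))
  have h2 := hm'.unique (nev_memR h0 (lt_add_one u) (hf _ _))
  exact ⟨h1, by rw [h2, h1]⟩

/-- no events of the instant -/
theorem evc_eq_zero : evc E u = 0 ↔ ∀ k, (u, k) ∉ E := by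
  unfold evc
  rw [Set.ncard_eq_zero (Set.toFinite _)]
  constructor
  · intro h k hk
    have : k ∈ evp E u := hk
    rw [h] at this
    exact this
  · intro h
    ext k
    exact iff_of_false (h k) id

theorem evc_pos {k : Fin 6} (h : (u, k) ∈ E) : 1 ≤ evc E u := by
  have h1 : ({k} : Set (Fin 6)) ⊆ evp E u := by
    rintro j rfl; exact h
  have := Set.ncard_le_ncard h1 (Set.toFinite _)
  rwa [Set.ncard_singleton] at this

theorem evc_two {k k' : Fin 6} (hk : k ≠ k') (h : (u, k) ∈ E) (h' : (u, k') ∈ E) :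
    2 ≤ evc E u := by
  have h1 : ({k, k'} : Set (Fin 6)) ⊆ evp E u := by
    rintro j (rfl | hj)
    · exact h
    · rw [mem_singleton_iff] at hj; rw [hj]; exact h'
  have := Set.ncard_le_ncard h1 (Set.toFinite _)
  rwa [Set.ncard_pair hk] at this

theorem evc_three {k k' k'' : Fin 6} (hk : k ≠ k') (hk' : k ≠ k'') (hk'' : k' ≠ k'')
    (h : (u, k) ∈ E) (h' : (u, k') ∈ E) (h'' : (u, k'') ∈ E) : 3 ≤ evc E u := by
  have h1 : ({k, k', k''} : Set (Fin 6)) ⊆ evp E u := by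
    rintro j (rfl | rfl | hj)
    · exact h
    · exact h'
    · rw [mem_singleton_iff] at hj; rw [hj]; exact h''
  have h2 := Set.ncard_le_ncard h1 (Set.toFinite _)
  have h3 : ({k, k', k''} : Set (Fin 6)).ncard = 3 :=
    Set.ncard_eq_three.2 ⟨k, k', k'', hk, hk', hk'', rfl⟩
  unfold evc
  omega

/-- an event of the instant -/
theorem evc_one_le (h : 1 ≤ evc E u) : ∃ k, (u, k) ∈ E := by
  by_contra hcon
  push Not at hcon
  have := evc_eq_zero.2 hcon
  omega

/-- two events of the instant -/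
theorem evc_two_le (h : 2 ≤ evc E u) : ∃ k k', k ≠ k' ∧ (u, k) ∈ E ∧ (u, k') ∈ E := by
  have h1 : 1 < (evp E u).ncard := h
  obtain ⟨k, hk, k', hk', hne⟩ := (Set.one_lt_ncard (Set.toFinite _)).1 h1
  exact ⟨k, k', hne, hk, hk'⟩

end

/-! ### events on a circle -/

/-- the times at which the ring about `z` meets `A` -/
def evA (z : ℂ) (A : Set ℂ) : Set (ℝ × Fin 6) := {x | pt z (x.1 + (x.2.val : ℝ)) ∈ A}

theorem pt_inj_period {z : ℂ} {u0 u u' : ℝ} {k k' : Fin 6} (h1 : u0 ≤ u) (h2 : u < u0 + 1)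
    (h3 : u0 ≤ u') (h4 : u' < u0 + 1) (h : pt z (u + (k.val : ℝ)) = pt z (u' + (k'.val : ℝ))) :
    u = u' ∧ k = k' := by
  obtain ⟨n, hn⟩ := pt_int137 h
  have hk := k.isLt
  have hk' := k'.isLt
  have h5 : u' - u = (((k.val : ℤ) - (k'.val : ℤ) + 6 * n : ℤ) : ℝ) := by
    push_cast; linarith
  have h6 : ((k.val : ℤ) - (k'.val : ℤ) + 6 * n : ℤ) = 0 := by
    have h7 : (((k.val : ℤ) - (k'.val : ℤ) + 6 * n : ℤ) : ℝ) < ((1 : ℤ) : ℝ) := by
      rw [← h5]; push_cast; linarith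
    have h8 : ((-1 : ℤ) : ℝ) < (((k.val : ℤ) - (k'.val : ℤ) + 6 * n : ℤ) : ℝ) := by
      rw [← h5]; push_cast; linarith
    have h9 := Int.cast_lt.1 h7
    have h10 := Int.cast_lt.1 h8
    omega
  refine ⟨?_, Fin.ext (by omega)⟩
  rw [h6] at h5
  push_cast at h5
  linarith

theorem evA_finite {z : ℂ} {A : Set ℂ} (hA : (A ∩ sphere z 1).Finite) : EvF (evA z A) := by
  intro a b
  have h1 : evS (evA z A) a b ⊆ ⋃ k : Fin 6, ⋃ q ∈ A ∩ sphere z 1,
      (fun t : ℝ => (t, k)) '' ({t : ℝ | pt z (t + (k.val : ℝ)) = q} ∩ Icc a b) := by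
    rintro ⟨t, k⟩ ⟨h2, h3, h4⟩
    simp only [mem_iUnion]
    exact ⟨k, pt z (t + (k.val : ℝ)), ⟨h2, mem_sphere.2 (dist_pt _ _)⟩, t, ⟨rfl, h3, h4.le⟩, rfl⟩
  refine Set.Finite.subset ?_ h1
  refine Set.finite_iUnion fun k => ?_
  exact Set.Finite.biUnion hA fun q _ => (pt_fiber_finite z q _ a b).image _

/-- every point of the circle is met exactly once in a period -/
theorem nev_period {z : ℂ} {A : Set ℂ} (u0 : ℝ) :
    nev (evA z A) u0 (u0 + 1) = (A ∩ sphere z 1).ncard := by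
  have h1 : InjOn (fun x : ℝ × Fin 6 => pt z (x.1 + (x.2.val : ℝ))) (evS (evA z A) u0 (u0 + 1)) := by
    rintro ⟨u, k⟩ ⟨-, h1, h2⟩ ⟨u', k'⟩ ⟨-, h3, h4⟩ h
    obtain ⟨h5, h6⟩ := pt_inj_period h1 h2 h3 h4 h
    exact Prod.ext h5 h6
  have h2 : (fun x : ℝ × Fin 6 => pt z (x.1 + (x.2.val : ℝ))) '' (evS (evA z A) u0 (u0 + 1)) =
      A ∩ sphere z 1 := by
    ext q
    constructor
    · rintro ⟨x, hx, rfl⟩
      exact ⟨hx.1, mem_sphere.2 (dist_pt _ _)⟩
    · rintro ⟨hq, hq'⟩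
      obtain ⟨u, k, h3, h4, h5⟩ := exists_meet (z := z) (q := q) (mem_sphere.1 hq') u0
      refine ⟨(u, k), ⟨?_, h3, h4⟩, h5⟩
      show pt z (u + (k.val : ℝ)) ∈ A
      rw [h5]; exact hq
  unfold nev
  rw [← h2, h1.ncard_image]

/-! ### closed sets: the memory -/

/-- some time of `[u0, v)` is in `S` -/
def seen (S : Set ℝ) (u0 v : ℝ) : Prop := ∃ w ∈ S, u0 ≤ w ∧ w < v

section
variable {S : Set ℝ} {u0 u : ℝ}

theorem seen_reg (S : Set ℝ) (u0 : ℝ) : Reg (seen S u0) :=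
  reg_mono fun _ _ h ⟨w, h1, h2, h3⟩ => ⟨w, h1, h2, h3.trans_le h⟩

theorem seen_memL : MemL (seen S u0) u (seen S u0 u) := by
  rw [memL_iff]
  by_cases h : seen S u0 u
  · obtain ⟨w, h1, h2, h3⟩ := h
    exact ⟨w, h3, fun v h4 h5 => propext (iff_of_true ⟨w, h1, h2, h4⟩ ⟨w, h1, h2, h3⟩)⟩
  · exact ⟨u - 1, by linarith, fun v _ h5 => propext (iff_of_false (fun ⟨w, h1, h2, h3⟩ =>
      h ⟨w, h1, h2, h3.trans h5⟩) h)⟩

theorem seen_memR (hS : IsClosed S) (h0 : u0 ≤ u) : MemR (seen S u0) u (seen S u0 u ∨ u ∈ S) := by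
  rw [memR_iff]
  by_cases h : seen S u0 u ∨ u ∈ S
  · refine ⟨u + 1, by linarith, fun v h4 _ => propext (iff_of_true ?_ h)⟩
    rcases h with ⟨w, h1, h2, h3⟩ | h1
    · exact ⟨w, h1, h2, h3.trans h4⟩
    · exact ⟨u, h1, h0, h4⟩
  · push Not at h
    have h1 : Sᶜ ∈ 𝓝[>] u := mem_nhdsWithin_of_mem_nhds (hS.isOpen_compl.mem_nhds h.2)
    obtain ⟨b, hb, h2⟩ := (mem_nhdsGT_iff_exists_Ioo_subset).1 h1
    refine ⟨b, hb, fun v h4 h5 => propext (iff_of_false ?_ ?_)⟩
    · rintro ⟨w, h6, h7, h8⟩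
      rcases lt_trichotomy w u with h9 | h9 | h9
      · exact h.1 ⟨w, h6, h7, h9⟩
      · exact h.2 (h9 ▸ h6)
      · exact h2 ⟨h9, h8.trans h5⟩ h6
    · push Not; exact h

theorem seen_step (hS : IsClosed S) (h0 : u0 ≤ u) {m m' : Prop} (hm : MemL (seen S u0) u m)
    (hm' : MemR (seen S u0) u m') : (m ↔ seen S u0 u) ∧ (m' ↔ m ∨ u ∈ S) := by
  have h1 := hm.unique seen_memL
  have h2 := hm'.unique (seen_memR hS h0)
  exact ⟨by rw [h1], by rw [h2, h1]⟩

theorem not_seen_self : ¬ seen S u0 u0 := fun ⟨_, _, h2, h3⟩ => absurd h3 (not_lt.2 h2)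

theorem seen_init {m : Prop} (hm : MemL (seen S u0) u0 m) : ¬ m := by
  rw [hm.unique seen_memL]; exact not_seen_self

end

/-! ### arcs -/

/-- convex below length 3 -/
def Cvx (S : Set ℝ) : Prop := ∀ x ∈ S, ∀ y ∈ S, x ≤ y → y < x + 3 → ∀ w, x ≤ w → w ≤ y → w ∈ S

theorem Cvx.shift {S : Set ℝ} (hS : Cvx S) (a : ℝ) : Cvx {v | v + a ∈ S} := by
  intro x hx y hy h1 h2 w h3 h4
  exact hS (x + a) hx (y + a) hy (by linarith) (by linarith) (w + a) (by linarith) (by linarith)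

theorem Cvx.reg {S : Set ℝ} (hS : Cvx S) : Reg fun v => v ∈ S := by
  intro u
  constructor
  · by_cases h : ∃ᶠ v in 𝓝[<] u, v ∈ S
    · refine ⟨True, memL_iff.2 ?_⟩
      obtain ⟨x, hx, hx1⟩ := (h.and_eventually (Ioo_mem_nhdsLT (show u - 1 < u by linarith))).exists
      refine ⟨x, hx1.2, fun w h2 h3 => eq_true ?_⟩
      obtain ⟨y, hy, hy1⟩ := (h.and_eventually (Ioo_mem_nhdsLT h3)).exists
      exact hS x hx y hy (by linarith [hy1.1]) (by linarith [hx1.1, hy1.2]) w h2.le hy1.1.le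
    · refine ⟨False, ?_⟩
      have h1 : ∀ᶠ v in 𝓝[<] u, ¬ v ∈ S := not_frequently.1 h
      exact h1.mono fun v hv => eq_false hv
  · by_cases h : ∃ᶠ v in 𝓝[>] u, v ∈ S
    · refine ⟨True, memR_iff.2 ?_⟩
      obtain ⟨y, hy, hy1⟩ := (h.and_eventually (Ioo_mem_nhdsGT (show u < u + 1 by linarith))).exists
      refine ⟨y, hy1.1, fun w h2 h3 => eq_true ?_⟩
      obtain ⟨x, hx, hx1⟩ := (h.and_eventually (Ioo_mem_nhdsGT h2)).exists
      exact hS x hx y hy (by linarith [hx1.2]) (by linarith [hx1.1, hy1.2]) w hx1.2.le h3.le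
    · refine ⟨False, ?_⟩
      have h1 : ∀ᶠ v in 𝓝[>] u, ¬ v ∈ S := not_frequently.1 h
      exact h1.mono fun v hv => eq_false hv

theorem memL_mem {S : Set ℝ} (hS : IsClosed S) {u : ℝ} {m : Prop} (hm : MemL (fun v => v ∈ S) u m)
    (h : m) : u ∈ S := by
  have h1 : ∀ᶠ v in 𝓝[<] u, v ∈ S := hm.mono fun v hv => Eq.mpr hv h
  have h2 : ∃ᶠ v in 𝓝 u, v ∈ S := h1.frequently.filter_mono nhdsWithin_le_nhds
  have h3 := mem_closure_iff_frequently.2 h2
  rwa [hS.closure_eq] at h3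

theorem memR_mem {S : Set ℝ} (hS : IsClosed S) {u : ℝ} {m : Prop} (hm : MemR (fun v => v ∈ S) u m)
    (h : m) : u ∈ S := by
  have h1 : ∀ᶠ v in 𝓝[>] u, v ∈ S := hm.mono fun v hv => Eq.mpr hv h
  have h2 : ∃ᶠ v in 𝓝 u, v ∈ S := h1.frequently.filter_mono nhdsWithin_le_nhds
  have h3 := mem_closure_iff_frequently.2 h2
  rwa [hS.closure_eq] at h3

/-- two directions: the limits of the position `k` at `u + 1` are the limits of `k + 1` at `u` -/
theorem memL_rot {S : Set ℝ} (hper : ∀ v, v + 6 ∈ S ↔ v ∈ S) (k : Fin 6) {u : ℝ} {m : Prop} :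
    MemL (fun v => v + (k.val : ℝ) ∈ S) (u + 1) m ↔
      MemL (fun v => v + ((k + 1 : Fin 6).val : ℝ) ∈ S) u m := by
  have key : ∀ v : ℝ, (v + 1 + (k.val : ℝ) ∈ S) = (v + ((k + 1 : Fin 6).val : ℝ) ∈ S) := by
    intro v
    by_cases ha : k.val = 5
    · have e : (k + 1 : Fin 6) = 0 := by
        apply Fin.ext; simp [Fin.val_add, ha]
      rw [e, ha]
      have e3 : v + 1 + ((5 : ℕ) : ℝ) = v + ((0 : Fin 6).val : ℝ) + 6 := by
        simp only [Fin.val_zero]; push_cast; ring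
      rw [e3, hper]
    · have e : (k + 1 : Fin 6).val = k.val + 1 := by
        have := k.isLt
        rw [Fin.val_add, show ((1 : Fin 6).val) = 1 from rfl, Nat.mod_eq_of_lt (by omega)]
      have e2 : v + 1 + (k.val : ℝ) = v + ((k.val + 1 : ℕ) : ℝ) := by push_cast; ring
      rw [e, e2]
  rw [memL_iff, memL_iff]
  constructor
  · rintro ⟨a, h1, h2⟩
    refine ⟨a - 1, by linarith, fun v h3 h4 => ?_⟩
    rw [← key]
    exact h2 (v + 1) (by linarith) (by linarith)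
  · rintro ⟨a, h1, h2⟩
    refine ⟨a + 1, by linarith, fun v h3 h4 => ?_⟩
    have h5 := h2 (v - 1) (by linarith) (by linarith)
    rw [← h5]
    show (v + (k.val : ℝ) ∈ S) = (v - 1 + ((k + 1 : Fin 6).val : ℝ) ∈ S)
    rw [← key, sub_add_cancel]

end Vale.Agent.P032.S5.H767
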