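import Vale.Agent.P032.R2.H264.Latch
import Vale.Agent.P032.R2.H741.TpF
import Vale.Agent.P032.R2.H609.W2E
import Vale.Agent.P032.R2.H267.Labels

/-!
# P032: the truth values of the atoms at an instant

`Dat`: centres, colours, letter sets and the anchor time of the rings `G : RD`.  `semAt U T G D L0 u L K`:
the values of all atoms at the instant `u`, where `L`, `K` are selections just before and just after
`u` and `L0` is the selection just before the anchor time.  The letter sets of a ring have the numbers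
`0 .. 5`: `0: e`, `1: f`, `2, 5: ab`, `3, 4: cd`; the numbers `5` and `4` are the type `F`.

* `latS v`: the latches as functions of the time, `reg_lat`;
* `val_cur`, `val_nxt`: the values before and after the instant are the one-sided limits;
* `no_cert`: an inductive invariant which excludes the closing of the period does not exist.
-/

set_option autoImplicit false

open Set Filter Topology Metric

noncomputable section

namespace Vale.Agent.P032.R2.H264

open Vale.Agent.P032.Six Vale.Agent.P032.Words Vale.Agent.P032.S5.H767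
open Vale.Agent.P032.R2.H741.Tp

/-! ### one-sided values -/

/-- the value just before `u` -/
def LV (μ : ℝ → Prop) (u : ℝ) : Prop := ∀ᶠ v in 𝓝[<] u, μ v

/-- the value just after `u` -/
def RV (μ : ℝ → Prop) (u : ℝ) : Prop := ∀ᶠ v in 𝓝[>] u, μ v

theorem lv_iff {μ : ℝ → Prop} {u : ℝ} {m : Prop} (h : MemL μ u m) : LV μ u ↔ m := by
  constructor
  · intro h1
    obtain ⟨v, h2, h3⟩ := (Filter.Eventually.and h h1).exists
    exact h2 ▸ h3
  · intro h1
    exact h.mono fun v hv => Eq.mpr hv h1

theorem rv_iff {μ : ℝ → Prop} {u : ℝ} {m : Prop} (h : MemR μ u m) : RV μ u ↔ m := by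
  constructor
  · intro h1
    obtain ⟨v, h2, h3⟩ := (Filter.Eventually.and h h1).exists
    exact h2 ▸ h3
  · intro h1
    exact h.mono fun v hv => Eq.mpr hv h1

theorem lv_const {p : Prop} {u : ℝ} : LV (fun _ => p) u ↔ p :=
  lv_iff (Eventually.of_forall fun _ => rfl)

theorem rv_const {p : Prop} {u : ℝ} : RV (fun _ => p) u ↔ p :=
  rv_iff (Eventually.of_forall fun _ => rfl)

/-! ### the data -/

/-- centres, colours, letter sets, anchor time -/
structure Dat where
  /-- the centre of a ring -/
  c : ℕ → ℂ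
  /-- the colour with a number -/
  x : ℕ → Fin 6
  /-- the letter sets -/
  F : ℕ → Fin 6 → Set ℂ
  /-- the anchor time -/
  u0 : ℝ

section
variable (U : Fin 6 → Set ℂ) (T : ℂ → Set (Fin 6)) (G : RD) (D : Dat)

/-- the centres -/
def cen : Fin (G.R + G.Y) → ℂ := fun r => D.c r.val

/-- the letter sets -/
def lts : Fin (G.R + G.Y) → Fin 6 → Set ℂ := fun r => D.F r.val

/-- the colours of the letters -/
def cls : Fin (G.R + G.Y) → Fin 6 → Set (Fin 6) := fun r =>
  ![{D.x (G.sg r.val 4)}, {D.x (G.sg r.val 5)}, {D.x (G.sg r.val 0), D.x (G.sg r.val 1)},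
    {D.x (G.sg r.val 2), D.x (G.sg r.val 3)}, {D.x (G.sg r.val 2), D.x (G.sg r.val 3)},
    {D.x (G.sg r.val 0), D.x (G.sg r.val 1)}]

/-- selections -/
abbrev Sl := Fin (G.R + G.Y) × Fin 6 → Fin 6

/-- the letter of a letter set -/
def lm : Fin 6 → ℕ := ![0, 1, 2, 3, 3, 2]

variable {G} in
/-- the letter of a selection -/
def XL (L : Sl G) (r k l : ℕ) : Prop :=
  ∃ (hr : r < G.R + G.Y) (hk : k < 6), lm (L (⟨r, hr⟩, ⟨k, hk⟩)) = l

variable {G} in
/-- the type `F` of a selection; `p = 0`: pair `ab`, `p = 1`: pair `cd` -/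
def TL (L : Sl G) (r p k : ℕ) : Prop :=
  ∃ (hr : r < G.R + G.Y) (hk : k < 6), (L (⟨r, hr⟩, ⟨k, hk⟩)).val = 5 - p

/-- the point of a position -/
def pp (r k : ℕ) (u : ℝ) : ℂ := pt (D.c r) (u + (k : ℝ))

/-- the points with the palette number `a` -/
def At (r a : ℕ) : Set ℂ := {q | ∀ i < 6, (D.x i ∈ T q ↔ i ∈ tc G r a)}

/-- the palette number `a` occurs on the circle of the ring `r` -/
def Pr (r a : ℕ) : Prop := ∃ q, dist q (D.c r) = 1 ∧ q ∈ At T G D r a

/-- the palette number `a` is counted: finitely many points, and in mode `4` both palettes occur -/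
def okN (r a : ℕ) : Prop :=
  (G.md r a = 4 → Pr T G D r a ∧ Pr T G D r (3 - a)) ∧ (At T G D r a ∩ sphere (D.c r) 1).Finite

/-- the number of a position as an element of `Fin 6` -/
def fk (k : ℕ) : Fin 6 := ⟨k % 6, Nat.mod_lt _ (by norm_num)⟩

/-- the latches at the time `v` -/
def latS (L0 : Sl G) (v : ℝ) : Sem where
  X _ _ _ _ := False
  C _ _ _ := False
  Q _ _ := False
  H _ _ := False
  D _ _ _ := False
  n r i x := nM U (D.c r) (D.x i) (fk (x / 3)) v
  M _ r i k := sM U (D.c r) (D.x i) (fk k) D.u0 v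
  g _ r j := gM U (D.c r) (D.x (G.sg r (j / 2))) (D.x (G.sg r (2 + j % 2))) D.u0 v
  I r k l := XL L0 r k l
  J r i k := Nx U (D.c r) (D.x i) D.u0 (3 * (k : ℤ))
  N _ r a j := okN T G D r a ∧ cM (D.c r) (At T G D r a) D.u0 (j + 1) v
  E _ _ _ := False
  ct _ _ _ := False
  dn _ r s := dM (D.c r) (D.c s) D.u0 v
  F _ := firstM D.u0 v
  P r a := Pr T G D r a
  U r j i := D.x i ∈ T (D.c (G.id1 r j) + D.c (G.id2 r j) - D.c r)
  V r j w := DPt T (D.c (G.id1 r j) + D.c (G.id2 r j) - D.c r) (D.x (pc G (G.id1 r j) w 0))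
    (D.x (pc G (G.id1 r j) w 1)) (D.x (pc G (G.id1 r j) w 2)) (D.x (pc G (G.id1 r j) w 3))
  ty _ _ _ _ := False
  ti r p k := TL L0 r p k
  ue _ _ _ := False
  sn _ _ _ := False

/-- the atoms at the instant `u` -/
def semAt (L0 : Sl G) (u : ℝ) (L K : Sl G) : Sem where
  X t r k l := if t = 0 then XL L r k l else XL K r k l
  C r k i := D.x i ∈ T (pp D r k u)
  Q r k := 4 ≤ (T (pp D r k u)).ncard
  H r k := ∃ A, Harm T (pp D r k u) A
  D r k w := DPt T (pp D r k u) (D.x (pc G r w 0)) (D.x (pc G r w 1)) (D.x (pc G r w 2))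
    (D.x (pc G r w 3))
  n r i x := Nx U (D.c r) (D.x i) u (x : ℤ)
  M t r i k := seen {w | Nc U (D.c r) (D.x i) (w + ((fk k).val : ℝ))} D.u0 u ∨
    (t ≠ 0 ∧ Nc U (D.c r) (D.x i) (u + ((fk k).val : ℝ)))
  g t r j := seen (gS U (D.c r) (D.x (G.sg r (j / 2))) (D.x (G.sg r (2 + j % 2)))) D.u0 u ∨
    (t ≠ 0 ∧ u ∈ gS U (D.c r) (D.x (G.sg r (j / 2))) (D.x (G.sg r (2 + j % 2))))
  I r k l := XL L0 r k l
  J r i k := Nx U (D.c r) (D.x i) D.u0 (3 * (k : ℤ))
  N t r a j := okN T G D r a ∧
    j + 1 ≤ nev (evA (D.c r) (At T G D r a)) D.u0 u +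
      (if t = 0 then 0 else evc (evA (D.c r) (At T G D r a)) u)
  E r a k := (G.md r a = 4 → Pr T G D r a ∧ Pr T G D r (3 - a)) ∧ pp D r k u ∈ At T G D r a
  ct r s k := pp D r k u = D.c s
  dn t r s := 1 ≤ nev (evA (D.c r) {D.c s}) D.u0 u +
    (if t = 0 then 0 else evc (evA (D.c r) {D.c s}) u)
  F t := t = 0 ∧ u ≤ D.u0
  P r a := Pr T G D r a
  U r j i := D.x i ∈ T (D.c (G.id1 r j) + D.c (G.id2 r j) - D.c r)
  V r j w := DPt T (D.c (G.id1 r j) + D.c (G.id2 r j) - D.c r) (D.x (pc G (G.id1 r j) w 0))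
    (D.x (pc G (G.id1 r j) w 1)) (D.x (pc G (G.id1 r j) w 2)) (D.x (pc G (G.id1 r j) w 3))
  ty t r p k := if t = 0 then TL L r p k else TL K r p k
  ti r p k := TL L0 r p k
  ue _ _ _ := False
  sn _ _ _ := False

end

/-! ### state atoms and their successors -/

/-- `y` is the number of a state atom of a ring -/
def isSt (y : ℕ) : Bool :=
  decide (y < 24) || (decide (192 ≤ y ∧ y < 300) && decide (y % 3 = 0)) ||
    decide (300 ≤ y ∧ y < 336) || decide (372 ≤ y ∧ y < 376) || decide (380 ≤ y ∧ y < 452) ||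
    decide (536 ≤ y ∧ y < 544) || decide (y = 552) || decide (554 ≤ y ∧ y < 660) ||
    decide (672 ≤ y ∧ y < 684)

/-- the number of the successor of a state atom of a ring -/
def nxt (y : ℕ) : ℕ :=
  if y < 24 then y + 24 else if y < 300 then y + 2 else if y < 336 then y + 36
  else if y < 376 then y + 4 else if y < 440 then y else if y < 452 then y + 12
  else if y < 544 then y + 8 else if y < 553 then y + 1 else if y < 648 then y
  else if y < 660 then y + 12 else y

/-- the successor of a state atom -/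
def nx (c : ℕ) : ℕ := 704 * (c / 704) + nxt (c % 704)

/-- the successor of a state literal -/
def nxl (j : ℕ) : ℕ := 2 * nx (j / 2) + j % 2

theorem nxt_lt {y : ℕ} (h : isSt y = true) : nxt y < 704 ∧ y < 704 := by
  unfold isSt at h
  simp only [Bool.or_eq_true, Bool.and_eq_true, decide_eq_true_eq] at h
  unfold nxt
  split_ifs <;> omega

/-! ### evaluation of blocks -/

section
variable {S : Sem} {r y : ℕ}

theorem ev_X (h : y < 48) : valr S r y = S.X (y / 24) r (y % 24 / 4) (y % 4) := by
  unfold valr; rw [if_pos h]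

theorem ev_n (h : 192 ≤ y) (h' : y < 300) :
    valr S r y = S.n r ((y - 192) / 18) ((y - 192) % 18) := by
  unfold valr
  rw [if_neg (by omega), if_neg (by omega), if_neg (by omega), if_neg (by omega),
    if_neg (by omega), if_pos (by omega)]

theorem ev_M (h : 300 ≤ y) (h' : y < 372) :
    valr S r y = S.M ((y - 300) / 36) r ((y - 300) % 36 / 6) ((y - 300) % 6) := by
  unfold valr
  rw [if_neg (by omega), if_neg (by omega), if_neg (by omega), if_neg (by omega),
    if_neg (by omega), if_neg (by omega), if_pos (by omega)]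

theorem ev_g (h : 372 ≤ y) (h' : y < 380) : valr S r y = S.g ((y - 372) / 4) r ((y - 372) % 4) := by
  unfold valr
  rw [if_neg (by omega), if_neg (by omega), if_neg (by omega), if_neg (by omega),
    if_neg (by omega), if_neg (by omega), if_neg (by omega), if_pos (by omega)]

theorem ev_I (h : 380 ≤ y) (h' : y < 404) : valr S r y = S.I r ((y - 380) / 4) ((y - 380) % 4) := by
  unfold valr
  rw [if_neg (by omega), if_neg (by omega), if_neg (by omega), if_neg (by omega),
    if_neg (by omega), if_neg (by omega), if_neg (by omega), if_neg (by omega), if_pos (by omega)]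

theorem ev_J (h : 404 ≤ y) (h' : y < 440) : valr S r y = S.J r ((y - 404) / 6) ((y - 404) % 6) := by
  unfold valr
  rw [if_neg (by omega), if_neg (by omega), if_neg (by omega), if_neg (by omega),
    if_neg (by omega), if_neg (by omega), if_neg (by omega), if_neg (by omega), if_neg (by omega),
    if_pos (by omega)]

theorem ev_N (h : 440 ≤ y) (h' : y < 464) :
    valr S r y = S.N ((y - 440) / 12) r ((y - 440) % 12 / 3) ((y - 440) % 3) := by
  unfold valr
  rw [if_neg (by omega), if_neg (by omega), if_neg (by omega), if_neg (by omega),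
    if_neg (by omega), if_neg (by omega), if_neg (by omega), if_neg (by omega), if_neg (by omega),
    if_neg (by omega), if_pos (by omega)]

theorem ev_dn (h : 536 ≤ y) (h' : y < 552) :
    valr S r y = S.dn ((y - 536) / 8) r ((y - 536) % 8) := by
  unfold valr
  rw [if_neg (by omega), if_neg (by omega), if_neg (by omega), if_neg (by omega),
    if_neg (by omega), if_neg (by omega), if_neg (by omega), if_neg (by omega), if_neg (by omega),
    if_neg (by omega), if_neg (by omega), if_neg (by omega), if_neg (by omega), if_pos (by omega)]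

theorem ev_F (h : 552 ≤ y) (h' : y < 554) : valr S r y = S.F (y - 552) := by
  unfold valr
  rw [if_neg (by omega), if_neg (by omega), if_neg (by omega), if_neg (by omega),
    if_neg (by omega), if_neg (by omega), if_neg (by omega), if_neg (by omega), if_neg (by omega),
    if_neg (by omega), if_neg (by omega), if_neg (by omega), if_neg (by omega), if_neg (by omega),
    if_pos (by omega)]

theorem ev_P (h : 554 ≤ y) (h' : y < 558) : valr S r y = S.P r (y - 554) := by
  unfold valr
  rw [if_neg (by omega), if_neg (by omega), if_neg (by omega), if_neg (by omega),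
    if_neg (by omega), if_neg (by omega), if_neg (by omega), if_neg (by omega), if_neg (by omega),
    if_neg (by omega), if_neg (by omega), if_neg (by omega), if_neg (by omega), if_neg (by omega),
    if_neg (by omega), if_pos (by omega)]

theorem ev_U (h : 558 ≤ y) (h' : y < 584) : valr S r y = S.U r ((y - 560) / 6) ((y - 560) % 6) := by
  unfold valr
  rw [if_neg (by omega), if_neg (by omega), if_neg (by omega), if_neg (by omega),
    if_neg (by omega), if_neg (by omega), if_neg (by omega), if_neg (by omega), if_neg (by omega),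
    if_neg (by omega), if_neg (by omega), if_neg (by omega), if_neg (by omega), if_neg (by omega),
    if_neg (by omega), if_neg (by omega), if_pos (by omega)]

theorem ev_V (h : 584 ≤ y) (h' : y < 648) :
    valr S r y = S.V r ((y - 584) / 16) ((y - 584) % 16) := by
  unfold valr
  rw [if_neg (by omega), if_neg (by omega), if_neg (by omega), if_neg (by omega),
    if_neg (by omega), if_neg (by omega), if_neg (by omega), if_neg (by omega), if_neg (by omega),
    if_neg (by omega), if_neg (by omega), if_neg (by omega), if_neg (by omega), if_neg (by omega),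
    if_neg (by omega), if_neg (by omega), if_neg (by omega), if_pos (by omega)]

theorem ev_ty (h : 648 ≤ y) (h' : y < 672) :
    valr S r y = S.ty ((y - 648) / 12) r ((y - 648) % 12 / 6) ((y - 648) % 6) := by
  unfold valr
  rw [if_neg (by omega), if_neg (by omega), if_neg (by omega), if_neg (by omega),
    if_neg (by omega), if_neg (by omega), if_neg (by omega), if_neg (by omega), if_neg (by omega),
    if_neg (by omega), if_neg (by omega), if_neg (by omega), if_neg (by omega), if_neg (by omega),
    if_neg (by omega), if_neg (by omega), if_neg (by omega), if_neg (by omega), if_pos (by omega)]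

theorem ev_ti (h : 672 ≤ y) (h' : y < 684) :
    valr S r y = S.ti r ((y - 672) / 6) ((y - 672) % 6) := by
  unfold valr
  rw [if_neg (by omega), if_neg (by omega), if_neg (by omega), if_neg (by omega),
    if_neg (by omega), if_neg (by omega), if_neg (by omega), if_neg (by omega), if_neg (by omega),
    if_neg (by omega), if_neg (by omega), if_neg (by omega), if_neg (by omega), if_neg (by omega),
    if_neg (by omega), if_neg (by omega), if_neg (by omega), if_neg (by omega), if_neg (by omega),
    if_pos (by omega)]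

end

section
variable {U : Fin 6 → Set ℂ} {T : ℂ → Set (Fin 6)} {G : RD} {D : Dat} {L0 L K : Sl G} {u : ℝ}

/-! ### the latches and the atoms -/

theorem fk_val {k : ℕ} (h : k < 6) : (fk k).val = k := Nat.mod_eq_of_lt h

theorem lv_n {r i k : ℕ} (hk : k < 6) :
    Nx U (D.c r) (D.x i) u (3 * (k : ℤ)) ↔ LV (nM U (D.c r) (D.x i) (fk k)) u := by
  rw [Nx.zero]
  unfold LV nM
  rw [fk_val hk]
  push_cast
  rfl

theorem rv_n {r i k : ℕ} (hk : k < 6) :
    Nx U (D.c r) (D.x i) u (3 * (k : ℤ) + 2) ↔ RV (nM U (D.c r) (D.x i) (fk k)) u := by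
  rw [Nx.two]
  unfold RV nM
  rw [fk_val hk]
  push_cast
  rfl

theorem lv_seen {S : Set ℝ} {u0 : ℝ} : LV (seen S u0) u ↔ seen S u0 u := lv_iff seen_memL

theorem rv_seen {S : Set ℝ} {u0 : ℝ} (hS : IsClosed S) (h0 : u0 ≤ u) :
    RV (seen S u0) u ↔ seen S u0 u ∨ u ∈ S := rv_iff (seen_memR hS h0)

theorem lv_N {z : ℂ} {A : Set ℂ} {u0 : ℝ} {j : ℕ} {p : Prop} (hp : p → (A ∩ sphere z 1).Finite) :
    LV (fun v => p ∧ cM z A u0 j v) u ↔ p ∧ j ≤ nev (evA z A) u0 u := by
  by_cases h : p
  · have h1 : MemL (cM z A u0 j) u (j ≤ nev (evA z A) u0 u) :=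
      (nev_memL (evA_finite (hp h) u0 u)).mono fun v hv => by
        show (j ≤ nev (evA z A) u0 v) = _
        rw [hv]
    simp only [h, true_and]
    exact lv_iff h1
  · simp only [h, false_and]
    exact lv_const

theorem rv_N {z : ℂ} {A : Set ℂ} {u0 : ℝ} {j : ℕ} {p : Prop} (hp : p → (A ∩ sphere z 1).Finite)
    (h0 : u0 ≤ u) :
    RV (fun v => p ∧ cM z A u0 j v) u ↔ p ∧ j ≤ nev (evA z A) u0 u + evc (evA z A) u := by
  by_cases h : p
  · have h1 : MemR (cM z A u0 j) u (j ≤ nev (evA z A) u0 u + evc (evA z A) u) :=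
      (nev_memR h0 (lt_add_one u) (evA_finite (hp h) u0 (u + 1))).mono fun v hv => by
        show (j ≤ nev (evA z A) u0 v) = _
        rw [hv]
    simp only [h, true_and]
    exact rv_iff h1
  · simp only [h, false_and]
    exact rv_const

/-- **before the instant**: a state atom which is not a letter is the limit of its latch -/
theorem valr_cur {r y : ℕ} (h : isSt y = true) (h24 : ¬ y < 24) (h25 : ¬ (648 ≤ y ∧ y < 660)) :
    valr (semAt U T G D L0 u L K) r y ↔ LV (fun v => valr (latS U T G D L0 v) r y) u := by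
  unfold isSt at h
  simp only [Bool.or_eq_true, Bool.and_eq_true, decide_eq_true_eq] at h
  by_cases h1 : y < 300
  · have e2 : (fun v => valr (latS U T G D L0 v) r y) =
        nM U (D.c r) (D.x ((y - 192) / 18)) (fk ((y - 192) % 18 / 3)) := by
      funext v; rw [ev_n (by omega) h1]; rfl
    have e3 : (((y - 192) % 18 : ℕ) : ℤ) = 3 * (((y - 192) % 18 / 3 : ℕ) : ℤ) := by omega
    rw [ev_n (by omega) h1, e2]
    show Nx U (D.c r) (D.x ((y - 192) / 18)) u (((y - 192) % 18 : ℕ) : ℤ) ↔ _
    rw [e3]
    exact lv_n (by omega)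
  by_cases h2 : y < 336
  · have e1 : (y - 300) / 36 = 0 := by omega
    have e2 : (fun v => valr (latS U T G D L0 v) r y) =
        seen {w | Nc U (D.c r) (D.x ((y - 300) % 36 / 6)) (w + ((fk ((y - 300) % 6)).val : ℝ))}
          D.u0 := by
      funext v; rw [ev_M (by omega) (by omega)]; rfl
    rw [ev_M (by omega) (by omega), e2, lv_seen, e1]
    show (_ ∨ (0 ≠ 0 ∧ _)) ↔ _
    simp only [ne_eq, not_true_eq_false, false_and, or_false]
  by_cases h3 : y < 376
  · have e1 : (y - 372) / 4 = 0 := by omega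
    have e2 : (fun v => valr (latS U T G D L0 v) r y) =
        seen (gS U (D.c r) (D.x (G.sg r ((y - 372) % 4 / 2)))
          (D.x (G.sg r (2 + (y - 372) % 4 % 2)))) D.u0 := by
      funext v; rw [ev_g (by omega) (by omega)]; rfl
    rw [ev_g (by omega) (by omega), e2, lv_seen, e1]
    show (_ ∨ (0 ≠ 0 ∧ _)) ↔ _
    simp only [ne_eq, not_true_eq_false, false_and, or_false]
  by_cases h4 : y < 404
  · have e2 : (fun v => valr (latS U T G D L0 v) r y) =
        fun _ => XL L0 r ((y - 380) / 4) ((y - 380) % 4) := by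
      funext v; rw [ev_I (by omega) (by omega)]; rfl
    rw [ev_I (by omega) (by omega), e2, lv_const]
    exact Iff.rfl
  by_cases h5 : y < 440
  · have e2 : (fun v => valr (latS U T G D L0 v) r y) =
        fun _ => Nx U (D.c r) (D.x ((y - 404) / 6)) D.u0 (3 * (((y - 404) % 6 : ℕ) : ℤ)) := by
      funext v; rw [ev_J (by omega) (by omega)]; rfl
    rw [ev_J (by omega) (by omega), e2, lv_const]
    exact Iff.rfl
  by_cases h6 : y < 452
  · have e1 : (y - 440) / 12 = 0 := by omega
    have e2 : (fun v => valr (latS U T G D L0 v) r y) =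
        fun v => okN T G D r ((y - 440) % 12 / 3) ∧
          cM (D.c r) (At T G D r ((y - 440) % 12 / 3)) D.u0 ((y - 440) % 3 + 1) v := by
      funext v; rw [ev_N (by omega) (by omega)]; rfl
    rw [ev_N (by omega) (by omega), e2, lv_N (fun h => h.2), e1]
    show (_ ∧ _ ≤ _ + (if 0 = 0 then 0 else _)) ↔ _
    simp
  by_cases h7 : y < 544
  · have e1 : (y - 536) / 8 = 0 := by omega
    have e2 : (fun v => valr (latS U T G D L0 v) r y) =
        cM (D.c r) {D.c ((y - 536) % 8)} D.u0 1 := by
      funext v; rw [ev_dn (by omega) (by omega)]; rfl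
    have h1 : MemL (cM (D.c r) {D.c ((y - 536) % 8)} D.u0 1) u
        (1 ≤ nev (evA (D.c r) {D.c ((y - 536) % 8)}) D.u0 u) :=
      (nev_memL (evA_finite single_fin D.u0 u)).mono fun v hv => by
        show (1 ≤ nev (evA _ _) D.u0 v) = _
        rw [hv]
    rw [ev_dn (by omega) (by omega), e2, lv_iff h1, e1]
    show (1 ≤ _ + (if 0 = 0 then 0 else _)) ↔ _
    simp
  by_cases h8 : y < 553
  · have e0 : y = 552 := by omega
    subst e0
    have e2 : (fun v => valr (latS U T G D L0 v) r 552) = firstM D.u0 := by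
      funext v; rw [ev_F (by omega) (by omega)]; rfl
    rw [ev_F (by omega) (by omega), e2]
    obtain ⟨m, hm⟩ := (firstM_reg D.u0 u).1
    rw [lv_iff hm, firstM_left hm]
    show (0 = 0 ∧ u ≤ D.u0) ↔ _
    simp
  by_cases h9 : y < 558
  · have e2 : (fun v => valr (latS U T G D L0 v) r y) =
        fun _ => Pr T G D r (y - 554) := by
      funext v; rw [ev_P (by omega) (by omega)]; rfl
    rw [ev_P (by omega) (by omega), e2, lv_const]
    exact Iff.rfl
  by_cases h10 : y < 584
  · have e2 : (fun v => valr (latS U T G D L0 v) r y) =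
        fun _ => D.x ((y - 560) % 6) ∈ T (D.c (G.id1 r ((y - 560) / 6)) +
          D.c (G.id2 r ((y - 560) / 6)) - D.c r) := by
      funext v; rw [ev_U (by omega) (by omega)]; rfl
    rw [ev_U (by omega) (by omega), e2, lv_const]
    exact Iff.rfl
  by_cases h11 : y < 648
  · have e2 : (fun v => valr (latS U T G D L0 v) r y) =
        fun _ => (semAt U T G D L0 u L K).V r ((y - 584) / 16) ((y - 584) % 16) := by
      funext v; rw [ev_V (by omega) h11]; rfl
    rw [ev_V (by omega) h11, e2, lv_const]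
  · have e2 : (fun v => valr (latS U T G D L0 v) r y) =
        fun _ => TL L0 r ((y - 672) / 6) ((y - 672) % 6) := by
      funext v; rw [ev_ti (by omega) (by omega)]; rfl
    rw [ev_ti (by omega) (by omega), e2, lv_const]
    exact Iff.rfl

/-- **after the instant** -/
theorem valr_nxt (h0 : D.u0 ≤ u) {r y : ℕ} (h : isSt y = true) (h24 : ¬ y < 24)
    (h25 : ¬ (648 ≤ y ∧ y < 660)) :
    valr (semAt U T G D L0 u L K) r (nxt y) ↔ RV (fun v => valr (latS U T G D L0 v) r y) u := by
  unfold isSt at h
  simp only [Bool.or_eq_true, Bool.and_eq_true, decide_eq_true_eq] at h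
  unfold nxt
  rw [if_neg h24]
  by_cases h1 : y < 300
  · have e2 : (fun v => valr (latS U T G D L0 v) r y) =
        nM U (D.c r) (D.x ((y - 192) / 18)) (fk ((y - 192) % 18 / 3)) := by
      funext v; rw [ev_n (by omega) h1]; rfl
    have e3 : (((y + 2 - 192) % 18 : ℕ) : ℤ) = 3 * (((y - 192) % 18 / 3 : ℕ) : ℤ) + 2 := by omega
    have e4 : (y + 2 - 192) / 18 = (y - 192) / 18 := by omega
    rw [if_pos h1, ev_n (by omega) (by omega), e2, e4]
    show Nx U (D.c r) (D.x ((y - 192) / 18)) u (((y + 2 - 192) % 18 : ℕ) : ℤ) ↔ _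
    rw [e3]
    exact rv_n (by omega)
  rw [if_neg h1]
  by_cases h2 : y < 336
  · have e1 : (y + 36 - 300) / 36 = 1 := by omega
    have e2 : (fun v => valr (latS U T G D L0 v) r y) =
        seen {w | Nc U (D.c r) (D.x ((y - 300) % 36 / 6)) (w + ((fk ((y - 300) % 6)).val : ℝ))}
          D.u0 := by
      funext v; rw [ev_M (by omega) (by omega)]; rfl
    have e4 : (y + 36 - 300) % 36 / 6 = (y - 300) % 36 / 6 := by omega
    have e5 : (y + 36 - 300) % 6 = (y - 300) % 6 := by omega
    have hcl : IsClosed {w | Nc U (D.c r) (D.x ((y - 300) % 36 / 6))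
        (w + ((fk ((y - 300) % 6)).val : ℝ))} := closed_shift nc_closed _
    rw [if_pos h2, ev_M (by omega) (by omega), e2, rv_seen hcl h0, e1, e4, e5]
    show (_ ∨ (1 ≠ 0 ∧ _)) ↔ _
    simp only [ne_eq, one_ne_zero, not_false_eq_true, true_and]
    exact Iff.rfl
  rw [if_neg h2]
  by_cases h3 : y < 376
  · have e1 : (y + 4 - 372) / 4 = 1 := by omega
    have e2 : (fun v => valr (latS U T G D L0 v) r y) =
        seen (gS U (D.c r) (D.x (G.sg r ((y - 372) % 4 / 2)))
          (D.x (G.sg r (2 + (y - 372) % 4 % 2)))) D.u0 := by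
      funext v; rw [ev_g (by omega) (by omega)]; rfl
    have e4 : (y + 4 - 372) % 4 = (y - 372) % 4 := by omega
    rw [if_pos h3, ev_g (by omega) (by omega), e2, rv_seen gS_closed h0, e1, e4]
    show (_ ∨ (1 ≠ 0 ∧ _)) ↔ _
    simp only [ne_eq, one_ne_zero, not_false_eq_true, true_and]
  rw [if_neg h3]
  by_cases h4 : y < 404
  · have e2 : (fun v => valr (latS U T G D L0 v) r y) =
        fun _ => XL L0 r ((y - 380) / 4) ((y - 380) % 4) := by
      funext v; rw [ev_I (by omega) (by omega)]; rfl
    rw [if_pos (by omega), ev_I (by omega) (by omega), e2, rv_const]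
    exact Iff.rfl
  by_cases h5 : y < 440
  · have e2 : (fun v => valr (latS U T G D L0 v) r y) =
        fun _ => Nx U (D.c r) (D.x ((y - 404) / 6)) D.u0 (3 * (((y - 404) % 6 : ℕ) : ℤ)) := by
      funext v; rw [ev_J (by omega) (by omega)]; rfl
    rw [if_pos h5, ev_J (by omega) (by omega), e2, rv_const]
    exact Iff.rfl
  rw [if_neg h5]
  by_cases h6 : y < 452
  · have e1 : (y + 12 - 440) / 12 = 1 := by omega
    have e2 : (fun v => valr (latS U T G D L0 v) r y) =
        fun v => okN T G D r ((y - 440) % 12 / 3) ∧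
          cM (D.c r) (At T G D r ((y - 440) % 12 / 3)) D.u0 ((y - 440) % 3 + 1) v := by
      funext v; rw [ev_N (by omega) (by omega)]; rfl
    have e4 : (y + 12 - 440) % 12 / 3 = (y - 440) % 12 / 3 := by omega
    have e5 : (y + 12 - 440) % 3 = (y - 440) % 3 := by omega
    rw [if_pos h6, ev_N (by omega) (by omega), e2, rv_N (fun h => h.2) h0, e1, e4, e5]
    show (_ ∧ _ ≤ _ + (if 1 = 0 then 0 else _)) ↔ _
    simp
  rw [if_neg h6]
  by_cases h7 : y < 544
  · have e1 : (y + 8 - 536) / 8 = 1 := by omega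
    have e2 : (fun v => valr (latS U T G D L0 v) r y) =
        cM (D.c r) {D.c ((y - 536) % 8)} D.u0 1 := by
      funext v; rw [ev_dn (by omega) (by omega)]; rfl
    have e4 : (y + 8 - 536) % 8 = (y - 536) % 8 := by omega
    have h1 : MemR (cM (D.c r) {D.c ((y - 536) % 8)} D.u0 1) u
        (1 ≤ nev (evA (D.c r) {D.c ((y - 536) % 8)}) D.u0 u +
          evc (evA (D.c r) {D.c ((y - 536) % 8)}) u) :=
      (nev_memR h0 (lt_add_one u) (evA_finite single_fin D.u0 (u + 1))).mono fun v hv => by
        show (1 ≤ nev (evA _ _) D.u0 v) = _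
        rw [hv]
    rw [if_pos h7, ev_dn (by omega) (by omega), e2, rv_iff h1, e1, e4]
    show (1 ≤ _ + (if 1 = 0 then 0 else _)) ↔ _
    simp
  rw [if_neg h7]
  by_cases h8 : y < 553
  · have e0 : y = 552 := by omega
    subst e0
    have e2 : (fun v => valr (latS U T G D L0 v) r 552) = firstM D.u0 := by
      funext v; rw [ev_F (by omega) (by omega)]; rfl
    rw [if_pos h8, ev_F (by omega) (by omega), e2]
    obtain ⟨m, hm⟩ := (firstM_reg D.u0 u).2
    rw [rv_iff hm]
    have h9 := firstM_right h0 hm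
    show (552 + 1 - 552 = 0 ∧ u ≤ D.u0) ↔ _
    simp [h9]
  rw [if_neg h8]
  by_cases h11 : 648 ≤ y
  · have e2 : (fun v => valr (latS U T G D L0 v) r y) =
        fun _ => TL L0 r ((y - 672) / 6) ((y - 672) % 6) := by
      funext v; rw [ev_ti (by omega) (by omega)]; rfl
    rw [if_neg (by omega), if_neg (by omega), ev_ti (by omega) (by omega), e2, rv_const]
    exact Iff.rfl
  rw [if_pos (by omega)]
  by_cases h9 : y < 558
  · have e2 : (fun v => valr (latS U T G D L0 v) r y) =
        fun _ => Pr T G D r (y - 554) := by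
      funext v; rw [ev_P (by omega) (by omega)]; rfl
    rw [ev_P (by omega) (by omega), e2, rv_const]
    exact Iff.rfl
  by_cases h10 : y < 584
  · have e2 : (fun v => valr (latS U T G D L0 v) r y) =
        fun _ => D.x ((y - 560) % 6) ∈ T (D.c (G.id1 r ((y - 560) / 6)) +
          D.c (G.id2 r ((y - 560) / 6)) - D.c r) := by
      funext v; rw [ev_U (by omega) (by omega)]; rfl
    rw [ev_U (by omega) (by omega), e2, rv_const]
    exact Iff.rfl
  · have e2 : (fun v => valr (latS U T G D L0 v) r y) =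
        fun _ => (semAt U T G D L0 u L K).V r ((y - 584) / 16) ((y - 584) % 16) := by
      funext v; rw [ev_V (by omega) (by omega)]; rfl
    rw [ev_V (by omega) (by omega), e2, rv_const]

end

/-! ### the letters -/

section
variable {U : Fin 6 → Set ℂ} {T : ℂ → Set (Fin 6)} {G : RD} {D : Dat} {L0 L K : Sl G} {u : ℝ}

theorem valr_curX {r y : ℕ} (h : y < 24) :
    valr (semAt U T G D L0 u L K) r y ↔ XL L r (y / 4) (y % 4) := by
  rw [ev_X (by omega)]
  have e1 : y / 24 = 0 := by omega
  have e2 : y % 24 / 4 = y / 4 := by omega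
  rw [e1, e2]
  show (if (0 : ℕ) = 0 then XL L r (y / 4) (y % 4) else XL K r (y / 4) (y % 4)) ↔ _
  rw [if_pos rfl]

theorem valr_nxtX {r y : ℕ} (h : y < 24) :
    valr (semAt U T G D L0 u L K) r (nxt y) ↔ XL K r (y / 4) (y % 4) := by
  unfold nxt
  rw [if_pos h, ev_X (by omega)]
  have e1 : (y + 24) / 24 = 1 := by omega
  have e2 : (y + 24) % 24 / 4 = y / 4 := by omega
  have e3 : (y + 24) % 4 = y % 4 := by omega
  rw [e1, e2, e3]
  show (if (1 : ℕ) = 0 then XL L r (y / 4) (y % 4) else XL K r (y / 4) (y % 4)) ↔ _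
  rw [if_neg (by norm_num)]

theorem valr_curT {r y : ℕ} (h : 648 ≤ y) (h' : y < 660) :
    valr (semAt U T G D L0 u L K) r y ↔ TL L r ((y - 648) / 6) ((y - 648) % 6) := by
  rw [ev_ty h (by omega)]
  have e1 : (y - 648) / 12 = 0 := by omega
  have e2 : (y - 648) % 12 / 6 = (y - 648) / 6 := by omega
  rw [e1, e2]
  show (if (0 : ℕ) = 0 then TL L r ((y - 648) / 6) ((y - 648) % 6)
    else TL K r ((y - 648) / 6) ((y - 648) % 6)) ↔ _
  rw [if_pos rfl]

theorem valr_nxtT {r y : ℕ} (h : 648 ≤ y) (h' : y < 660) :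
    valr (semAt U T G D L0 u L K) r (nxt y) ↔ TL K r ((y - 648) / 6) ((y - 648) % 6) := by
  unfold nxt
  rw [if_neg (by omega), if_neg (by omega), if_neg (by omega), if_neg (by omega),
    if_neg (by omega), if_neg (by omega), if_neg (by omega), if_neg (by omega), if_neg (by omega),
    if_pos (by omega), ev_ty (by omega) (by omega)]
  have e1 : (y + 12 - 648) / 12 = 1 := by omega
  have e2 : (y + 12 - 648) % 12 / 6 = (y - 648) / 6 := by omega
  have e3 : (y + 12 - 648) % 6 = (y - 648) % 6 := by omega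
  rw [e1, e2, e3]
  show (if (1 : ℕ) = 0 then TL L r ((y - 648) / 6) ((y - 648) % 6)
    else TL K r ((y - 648) / 6) ((y - 648) % 6)) ↔ _
  rw [if_neg (by norm_num)]

/-- the value of a state atom from a selection and the values of the latches -/
def sv (L : Sl G) (m : ℕ → Prop) (c : ℕ) : Prop :=
  if c % 704 < 24 then XL L (c / 704) (c % 704 / 4) (c % 704 % 4)
  else if 648 ≤ c % 704 ∧ c % 704 < 660 then
    TL L (c / 704) ((c % 704 - 648) / 6) ((c % 704 - 648) % 6)
  else m c

/-- the latch of a state atom -/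
def lat (U : Fin 6 → Set ℂ) (T : ℂ → Set (Fin 6)) (G : RD) (D : Dat) (L0 : Sl G) (v : ℝ) (c : ℕ) :
    Prop := valr (latS U T G D L0 v) (c / 704) (c % 704)

theorem val_cur {c : ℕ} (h : isSt (c % 704) = true) :
    val (semAt U T G D L0 u L K) c ↔ sv L (fun c => LV (fun v => lat U T G D L0 v c) u) c := by
  unfold val sv
  by_cases h24 : c % 704 < 24
  · rw [if_pos h24, valr_curX h24]
  · by_cases h25 : 648 ≤ c % 704 ∧ c % 704 < 660
    · rw [if_neg h24, if_pos h25, valr_curT h25.1 h25.2]
    · rw [if_neg h24, if_neg h25, valr_cur h h24 h25]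
      exact Iff.rfl

theorem val_nxt (h0 : D.u0 ≤ u) {c : ℕ} (h : isSt (c % 704) = true) :
    val (semAt U T G D L0 u L K) (nx c) ↔ sv K (fun c => RV (fun v => lat U T G D L0 v c) u) c := by
  unfold nx
  rw [val_add (nxt_lt h).1]
  unfold sv
  by_cases h24 : c % 704 < 24
  · rw [if_pos h24, valr_nxtX h24]
  · by_cases h25 : 648 ≤ c % 704 ∧ c % 704 < 660
    · rw [if_neg h24, if_pos h25, valr_nxtT h25.1 h25.2]
    · rw [if_neg h24, if_neg h25, valr_nxt h0 h h24 h25]
      exact Iff.rfl

/-! ### every latch has one-sided limits -/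

theorem seen_reg' {S : Set ℝ} {u0 : ℝ} : Reg (seen S u0) := seen_reg S u0

theorem reg_lat (c : ℕ) (hc : isSt (c % 704) = true) : Reg fun v => lat U T G D L0 v c := by
  have hi := hc
  unfold isSt at hi
  simp only [Bool.or_eq_true, Bool.and_eq_true, decide_eq_true_eq] at hi
  unfold lat
  generalize c / 704 = r
  generalize c % 704 = y at hi
  by_cases h24 : y < 24
  · have e : (fun v => valr (latS U T G D L0 v) r y) = fun _ => False := by
      funext v; rw [ev_X (by omega)]; rfl
    rw [e]; exact reg_const _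
  by_cases h1 : y < 300
  · have e2 : (fun v => valr (latS U T G D L0 v) r y) =
        nM U (D.c r) (D.x ((y - 192) / 18)) (fk ((y - 192) % 18 / 3)) := by
      funext v; rw [ev_n (by omega) h1]; rfl
    rw [e2]; exact nM_reg
  by_cases h2 : y < 336
  · have e2 : (fun v => valr (latS U T G D L0 v) r y) =
        seen {w | Nc U (D.c r) (D.x ((y - 300) % 36 / 6)) (w + ((fk ((y - 300) % 6)).val : ℝ))}
          D.u0 := by
      funext v; rw [ev_M (by omega) (by omega)]; rfl
    rw [e2]; exact seen_reg _ _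
  by_cases h3 : y < 376
  · have e2 : (fun v => valr (latS U T G D L0 v) r y) =
        seen (gS U (D.c r) (D.x (G.sg r ((y - 372) % 4 / 2)))
          (D.x (G.sg r (2 + (y - 372) % 4 % 2)))) D.u0 := by
      funext v; rw [ev_g (by omega) (by omega)]; rfl
    rw [e2]; exact seen_reg _ _
  by_cases h4 : y < 404
  · have e2 : (fun v => valr (latS U T G D L0 v) r y) =
        fun _ => XL L0 r ((y - 380) / 4) ((y - 380) % 4) := by
      funext v; rw [ev_I (by omega) (by omega)]; rfl
    rw [e2]; exact reg_const _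
  by_cases h5 : y < 440
  · have e2 : (fun v => valr (latS U T G D L0 v) r y) =
        fun _ => Nx U (D.c r) (D.x ((y - 404) / 6)) D.u0 (3 * (((y - 404) % 6 : ℕ) : ℤ)) := by
      funext v; rw [ev_J (by omega) (by omega)]; rfl
    rw [e2]; exact reg_const _
  by_cases h6 : y < 452
  · have e2 : (fun v => valr (latS U T G D L0 v) r y) =
        fun v => okN T G D r ((y - 440) % 12 / 3) ∧
          cM (D.c r) (At T G D r ((y - 440) % 12 / 3)) D.u0 ((y - 440) % 3 + 1) v := by
      funext v; rw [ev_N (by omega) (by omega)]; rfl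
    rw [e2]
    by_cases hf : okN T G D r ((y - 440) % 12 / 3)
    · simp only [hf, true_and]
      exact cM_reg hf.2
    · simp only [hf, false_and]
      exact reg_const _
  by_cases h7 : y < 544
  · have e2 : (fun v => valr (latS U T G D L0 v) r y) =
        cM (D.c r) {D.c ((y - 536) % 8)} D.u0 1 := by
      funext v; rw [ev_dn (by omega) (by omega)]; rfl
    rw [e2]; exact cM_reg single_fin
  by_cases h8 : y < 553
  · have e0 : y = 552 := by omega
    subst e0
    have e2 : (fun v => valr (latS U T G D L0 v) r 552) = firstM D.u0 := by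
      funext v; rw [ev_F (by omega) (by omega)]; rfl
    rw [e2]; exact firstM_reg _
  by_cases h9 : y < 558
  · have e2 : (fun v => valr (latS U T G D L0 v) r y) =
        fun _ => Pr T G D r (y - 554) := by
      funext v; rw [ev_P (by omega) (by omega)]; rfl
    rw [e2]; exact reg_const _
  by_cases h10 : y < 584
  · have e2 : (fun v => valr (latS U T G D L0 v) r y) =
        fun _ => D.x ((y - 560) % 6) ∈ T (D.c (G.id1 r ((y - 560) / 6)) +
          D.c (G.id2 r ((y - 560) / 6)) - D.c r) := by
      funext v; rw [ev_U (by omega) (by omega)]; rfl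
    rw [e2]; exact reg_const _
  by_cases h11 : y < 648
  · have e2 : (fun v => valr (latS U T G D L0 v) r y) =
        fun _ => (latS U T G D L0 0).V r ((y - 584) / 16) ((y - 584) % 16) := by
      funext v; rw [ev_V (by omega) h11]; rfl
    rw [e2]; exact reg_const _
  by_cases h12 : y < 660
  · have e : (fun v => valr (latS U T G D L0 v) r y) = fun _ => False := by
      funext v; rw [ev_ty (by omega) (by omega)]; rfl
    rw [e]; exact reg_const _
  · have e2 : (fun v => valr (latS U T G D L0 v) r y) =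
        fun _ => TL L0 r ((y - 672) / 6) ((y - 672) % 6) := by
      funext v; rw [ev_ti (by omega) (by omega)]; rfl
    rw [e2]; exact reg_const _

/-! ### the induction -/

/-- a list of clauses over state atoms of the rings of `G` -/
def StC (G : RD) (inv : List (List ℕ)) : Prop :=
  ∀ c ∈ inv, ∀ j ∈ c, j / 2 < 704 * (G.R + G.Y) ∧ isSt (j / 2 % 704) = true

theorem lit_congr {v v' : ℕ → Prop} {j : ℕ} (h : v (j / 2) ↔ v' (j / 2)) :
    R2.H805.Rup.Lit v j ↔ R2.H805.Rup.Lit v' j := by
  unfold R2.H805.Rup.Lit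
  split_ifs
  · exact h
  · exact not_congr h

theorem hd_congr {v v' : ℕ → Prop} {c : List ℕ} (h : ∀ j ∈ c, v (j / 2) ↔ v' (j / 2)) :
    Hd v c ↔ Hd v' c := by
  unfold Hd
  exact exists_congr fun j => and_congr_right fun hj => lit_congr (h j hj)

theorem hd_nxl {v v' : ℕ → Prop} {c : List ℕ} (h : ∀ j ∈ c, v (nx (j / 2)) ↔ v' (j / 2)) :
    Hd v (c.map nxl) ↔ Hd v' c := by
  unfold Hd
  simp only [List.mem_map, exists_exists_and_eq_and]
  refine exists_congr fun j => and_congr_right fun hj => ?_
  have e1 : nxl j / 2 = nx (j / 2) := by unfold nxl; omega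
  have e2 : nxl j % 2 = j % 2 := by unfold nxl; omega
  unfold R2.H805.Rup.Lit
  rw [e1, e2]
  split_ifs
  · exact h j hj
  · exact not_congr (h j hj)

/-- **No certificate.**  `inv`: clauses over state atoms which hold after the anchor instant, are kept at
every later instant and fail at the end of the period. -/
theorem no_cert (h : Irr U T)
    (R : Rings T (cen G D) (cls G D) (lts G D))
    (hL0 : LimL (posX (cen G D) (lts G D)) (Good (cen G D)) D.u0 L0)
    {inv : List (List ℕ)} (hst : StC G inv)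
    (h0 : ∀ K, LimR (posX (cen G D) (lts G D)) (Good (cen G D)) D.u0 K →
      ∀ c ∈ inv, Hd (val (semAt U T G D L0 D.u0 L0 K)) (c.map nxl))
    (hstep : ∀ u, D.u0 < u → u < D.u0 + 1 → ∀ L K,
      LimL (posX (cen G D) (lts G D)) (Good (cen G D)) u L →
      LimR (posX (cen G D) (lts G D)) (Good (cen G D)) u K →
      (∀ c ∈ inv, Hd (val (semAt U T G D L0 u L K)) c) →
      ∀ c ∈ inv, Hd (val (semAt U T G D L0 u L K)) (c.map nxl))
    (hend : ¬ ∀ c ∈ inv, Hd (val (semAt U T G D L0 (D.u0 + 1) (rot L0) (rot L0))) c) : False := by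
  classical
  -- memories: the latches below `704 * (R + Y)`
  let μ : ℝ → (Fin (704 * (G.R + G.Y)) → Prop) := fun v c =>
    isSt (c.val % 704) = true ∧ lat U T G D L0 v c.val
  let ext : (Fin (704 * (G.R + G.Y)) → Prop) → ℕ → Prop := fun m c => ∃ hc : c < 704 * (G.R + G.Y), m ⟨c, hc⟩
  have hμ : Reg μ := by
    refine reg_pi fun c => ?_
    by_cases hc : isSt (c.val % 704) = true
    · have e : (fun v => μ v c) = fun v => lat U T G D L0 v c.val := by
        funext v; exact propext ⟨fun h1 => h1.2, fun h1 => ⟨hc, h1⟩⟩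
      rw [e]; exact reg_lat _ hc
    · have e : (fun v => μ v c) = fun _ => False := by
        funext v; exact propext ⟨fun h1 => hc h1.1, False.elim⟩
      rw [e]; exact reg_const _
  let I : (Fin (704 * (G.R + G.Y)) → Prop) → Sl G → Prop := fun m L => ∀ c ∈ inv, Hd (sv L (ext m)) c
  -- values of the latches
  have hml : ∀ {u : ℝ} {m : Fin (704 * (G.R + G.Y)) → Prop}, MemL μ u m → ∀ c, c < 704 * (G.R + G.Y) →
      isSt (c % 704) = true → (ext m c ↔ LV (fun v => lat U T G D L0 v c) u) := by
    intro u m hm c hc hs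
    have h1 := memL_pi.1 hm ⟨c, hc⟩
    have e : (fun v => μ v ⟨c, hc⟩) = fun v => lat U T G D L0 v c := by
      funext v; exact propext ⟨fun h1 => h1.2, fun h1 => ⟨hs, h1⟩⟩
    rw [e] at h1
    rw [lv_iff h1]
    exact ⟨fun ⟨_, h2⟩ => h2, fun h2 => ⟨hc, h2⟩⟩
  have hmr : ∀ {u : ℝ} {m : Fin (704 * (G.R + G.Y)) → Prop}, MemR μ u m → ∀ c, c < 704 * (G.R + G.Y) →
      isSt (c % 704) = true → (ext m c ↔ RV (fun v => lat U T G D L0 v c) u) := by
    intro u m hm c hc hs
    have h1 := memR_pi.1 hm ⟨c, hc⟩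
    have e : (fun v => μ v ⟨c, hc⟩) = fun v => lat U T G D L0 v c := by
      funext v; exact propext ⟨fun h1 => h1.2, fun h1 => ⟨hs, h1⟩⟩
    rw [e] at h1
    rw [rv_iff h1]
    exact ⟨fun ⟨_, h2⟩ => h2, fun h2 => ⟨hc, h2⟩⟩
  have hsvl : ∀ {u : ℝ} {m : Fin (704 * (G.R + G.Y)) → Prop} {L K : Sl G}, MemL μ u m →
      ((∀ c ∈ inv, Hd (val (semAt U T G D L0 u L K)) c) ↔ I m L) := by
    intro u m L K hm
    refine forall₂_congr fun c hc => hd_congr fun j hj => ?_
    obtain ⟨h1, h2⟩ := hst c hc j hj
    rw [val_cur h2]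
    unfold sv
    split_ifs
    · exact Iff.rfl
    · exact Iff.rfl
    · exact (hml hm _ h1 h2).symm
  have hsvr : ∀ {u : ℝ} {m : Fin (704 * (G.R + G.Y)) → Prop} {L K : Sl G}, D.u0 ≤ u → MemR μ u m →
      ((∀ c ∈ inv, Hd (val (semAt U T G D L0 u L K)) (c.map nxl)) ↔ I m K) := by
    intro u m L K hu hm
    refine forall₂_congr fun c hc => hd_nxl fun j hj => ?_
    obtain ⟨h1, h2⟩ := hst c hc j hj
    rw [val_nxt hu h2]
    unfold sv
    split_ifs
    · exact Iff.rfl
    · exact Iff.rfl
    · exact (hmr hm _ h1 h2).symm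
  refine Rings.no_period (M := Fin (704 * (G.R + G.Y)) → Prop) h R hL0 hμ (I := I) ?_ ?_ ?_
  · intro K m hK hm
    exact (hsvr le_rfl hm).1 (h0 K hK)
  · intro u h1 h2 L K m m' hL hK hm hm' hI
    exact (hsvr h1.le hm').1 (hstep u h1 h2 L K hL hK ((hsvl hm).2 hI))
  · intro m hm hI
    exact hend ((hsvl hm).2 hI)

end

end Vale.Agent.P032.R2.H264
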